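import Vale.Agent.Lib.P237.Mono

/-!
# P237: affine invariance of the normalized projection volume

For an invertible matrix `F` and a vector `c`, the image of `K` under `x ↦ c + F x` has the same
normalized projection volume as `K`.  Consequently the conjectured inequality holds for all
affine images of members of the family `PlanarProd` and for convex bodies close to them.
-/

namespace Vale.Agent.Lib.P237

open MeasureTheory Set Matrix

set_option linter.deprecated false
set_option linter.unusedSectionVars false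
set_option linter.unusedVariables false

noncomputable section

section aff

variable {κ : Type*} [Fintype κ] [DecidableEq κ]

lemma vol_aff_image (F : Matrix κ κ ℝ) (c : κ → ℝ) (S : Set (κ → ℝ)) :
    vol ((fun x : κ → ℝ => c + F *ᵥ x) '' S) = |F.det| * vol S := by
  have h1 : (fun x : κ → ℝ => c + F *ᵥ x) '' S
      = (fun y : κ → ℝ => c + y) '' ((Matrix.toLin' F) '' S) := by
    rw [Set.image_image]
    rfl
  unfold vol
  rw [h1, Set.image_add_left, measure_preimage_add, Measure.addHaar_image_linearMap,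
    LinearMap.det_toLin', ENNReal.toReal_mul, ENNReal.toReal_ofReal (abs_nonneg _)]

lemma swept_aff_image (F : Matrix κ κ ℝ) (c : κ → ℝ) (K : Set (κ → ℝ)) (u : κ → ℝ) :
    swept ((fun x : κ → ℝ => c + F *ᵥ x) '' K) (F *ᵥ u)
      = (fun x : κ → ℝ => c + F *ᵥ x) '' swept K u := by
  ext z
  constructor
  · rintro ⟨_, ⟨x, hx, rfl⟩, t, h0, h1, rfl⟩
    refine ⟨x + t • u, ⟨x, hx, t, h0, h1, rfl⟩, ?_⟩
    simp only [Matrix.mulVec_add, Matrix.mulVec_smul]
    abel
  · rintro ⟨_, ⟨x, hx, t, h0, h1, rfl⟩, rfl⟩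
    refine ⟨c + F *ᵥ x, ⟨x, hx, rfl⟩, t, h0, h1, ?_⟩
    simp only [Matrix.mulVec_add, Matrix.mulVec_smul]
    abel

lemma shadow_aff_image (F : Matrix κ κ ℝ) (c : κ → ℝ) (K : Set (κ → ℝ)) (u : κ → ℝ) :
    shadow ((fun x : κ → ℝ => c + F *ᵥ x) '' K) (F *ᵥ u) = |F.det| * shadow K u := by
  unfold shadow
  rw [swept_aff_image, vol_aff_image, vol_aff_image]
  ring

lemma pair_mulVec (F : Matrix κ κ ℝ) (x u : κ → ℝ) :
    ∑ i, x i * (F *ᵥ u) i = ∑ i, (Fᵀ *ᵥ x) i * u i := by
  simp only [Matrix.mulVec, dotProduct, Matrix.transpose_apply, Finset.mul_sum, Finset.sum_mul]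
  rw [Finset.sum_comm]
  refine Finset.sum_congr rfl fun i _ => Finset.sum_congr rfl fun j _ => ?_
  ring

lemma pair_smul (a : ℝ) (F : Matrix κ κ ℝ) (x u : κ → ℝ) :
    ∑ i, ((a • F) *ᵥ x) i * u i = a * ∑ i, (F *ᵥ x) i * u i := by
  simp only [Matrix.mulVec, dotProduct, Matrix.smul_apply, smul_eq_mul, Finset.mul_sum,
    Finset.sum_mul]
  refine Finset.sum_congr rfl fun i _ => Finset.sum_congr rfl fun j _ => ?_
  ring

lemma projBody_aff_image {F : Matrix κ κ ℝ} (hF : F.det ≠ 0) (c : κ → ℝ) (K : Set (κ → ℝ)) :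
    projBody ((fun x : κ → ℝ => c + F *ᵥ x) '' K)
      = (Matrix.toLin' (|F.det|⁻¹ • Fᵀ)) ⁻¹' projBody K := by
  have hdet : 0 < |F.det| := abs_pos.2 hF
  ext x
  simp only [projBody, Set.mem_setOf_eq, Set.mem_preimage, Matrix.toLin'_apply]
  constructor
  · intro h u
    have h1 := h (F *ᵥ u)
    rw [shadow_aff_image, pair_mulVec] at h1
    rw [pair_smul, inv_mul_le_iff₀ hdet]
    exact h1
  · intro h w
    have hw : F *ᵥ (F⁻¹ *ᵥ w) = w := by
      rw [Matrix.mulVec_mulVec, Matrix.mul_nonsing_inv _ (isUnit_iff_ne_zero.2 hF),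
        Matrix.one_mulVec]
    have h1 := h (F⁻¹ *ᵥ w)
    rw [pair_smul, inv_mul_le_iff₀ hdet] at h1
    rw [← hw, shadow_aff_image, pair_mulVec]
    exact h1

lemma vol_projBody_aff_image {F : Matrix κ κ ℝ} (hF : F.det ≠ 0) (c : κ → ℝ)
    (K : Set (κ → ℝ)) :
    vol (projBody ((fun x : κ → ℝ => c + F *ᵥ x) '' K)) * |F.det|
      = |F.det| ^ Fintype.card κ * vol (projBody K) := by
  rw [projBody_aff_image hF]
  have hd : |F.det| ≠ 0 := abs_ne_zero.2 hF
  have hH : LinearMap.det (Matrix.toLin' (|F.det|⁻¹ • Fᵀ))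
      = (|F.det|⁻¹) ^ Fintype.card κ * F.det := by
    rw [LinearMap.det_toLin', Matrix.det_smul, Matrix.det_transpose]
  have hne : LinearMap.det (Matrix.toLin' (|F.det|⁻¹ • Fᵀ)) ≠ 0 := by
    rw [hH]
    exact mul_ne_zero (pow_ne_zero _ (inv_ne_zero hd)) hF
  have h := Measure.addHaar_preimage_linearMap (volume : Measure (κ → ℝ)) hne (projBody K)
  unfold vol
  rw [h, hH, ENNReal.toReal_mul, ENNReal.toReal_ofReal (abs_nonneg _)]
  rw [abs_inv, abs_mul, abs_pow, abs_inv, abs_abs, mul_inv, inv_pow, inv_inv]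
  field_simp

/-- affine invariance of the normalized projection volume -/
theorem pettyRatio_aff_image {F : Matrix κ κ ℝ} (hF : F.det ≠ 0) (c : κ → ℝ)
    (K : Set (κ → ℝ)) :
    pettyRatio ((fun x : κ → ℝ => c + F *ᵥ x) '' K) = pettyRatio K := by
  have hd : 0 < |F.det| := abs_pos.2 hF
  have h1 := vol_projBody_aff_image hF c K
  unfold pettyRatio
  rw [vol_aff_image, mul_pow]
  rcases Nat.eq_zero_or_pos (Fintype.card κ) with h0 | hpos
  · have hemp : IsEmpty κ := Fintype.card_eq_zero_iff.1 h0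
    have hdet1 : F.det = 1 := Matrix.det_isEmpty
    rw [hdet1] at h1
    simp only [abs_one, mul_one, one_pow, one_mul] at h1
    rw [h1, h0]
    simp
  · obtain ⟨m, hm⟩ : ∃ m, Fintype.card κ = m + 1 := ⟨Fintype.card κ - 1, by omega⟩
    rw [hm] at h1 ⊢
    simp only [Nat.add_sub_cancel]
    rw [pow_succ] at h1
    have h2 : vol (projBody ((fun x : κ → ℝ => c + F *ᵥ x) '' K))
        = |F.det| ^ m * vol (projBody K) := by
      have h3 : vol (projBody ((fun x : κ → ℝ => c + F *ᵥ x) '' K)) * |F.det|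
          = |F.det| ^ m * vol (projBody K) * |F.det| := by
        rw [h1]
        ring
      exact mul_right_cancel₀ hd.ne' h3
    rw [h2, mul_div_mul_left _ _ (pow_pos hd m).ne']

lemma aff_image_compact (F : Matrix κ κ ℝ) (c : κ → ℝ) {A : Set (κ → ℝ)} (hA : IsCompact A) :
    IsCompact ((fun x : κ → ℝ => c + F *ᵥ x) '' A) := by
  have hcont : Continuous (fun x : κ → ℝ => c + F *ᵥ x) :=
    continuous_const.add (Continuous.matrix_mulVec continuous_const continuous_id)
  exact hA.image hcont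

lemma aff_image_convex (F : Matrix κ κ ℝ) (c : κ → ℝ) {A : Set (κ → ℝ)} (hA : Convex ℝ A) :
    Convex ℝ ((fun x : κ → ℝ => c + F *ᵥ x) '' A) := by
  have h1 : (fun x : κ → ℝ => c + F *ᵥ x) '' A
      = (fun y : κ → ℝ => c + y) '' ((Matrix.toLin' F) '' A) := by
    rw [Set.image_image]
    rfl
  rw [h1]
  exact (hA.linear_image (Matrix.toLin' F)).translate c

end aff

/-- affine images of the members of `PlanarProd` -/
theorem planarProd_aff {ι : Type} [Fintype ι] [DecidableEq ι] {T : Set (ι → ℝ)}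
    (hT : PlanarProd T) {F : Matrix ι ι ℝ} (hF : F.det ≠ 0) (c : ι → ℝ) :
    IsCompact ((fun x : ι → ℝ => c + F *ᵥ x) '' T) ∧
    Convex ℝ ((fun x : ι → ℝ => c + F *ᵥ x) '' T) ∧
    0 < vol ((fun x : ι → ℝ => c + F *ᵥ x) '' T) ∧
    (2:ℝ) ^ Fintype.card ι ≤ pettyRatio ((fun x : ι → ℝ => c + F *ᵥ x) '' T) ∧
    pettyConst (Fintype.card ι) ≤ pettyRatio ((fun x : ι → ℝ => c + F *ᵥ x) '' T) ∧
    (3 ≤ Fintype.card ι →
      pettyConst (Fintype.card ι) < pettyRatio ((fun x : ι → ℝ => c + F *ᵥ x) '' T)) := by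
  obtain ⟨cT, vT, pT, h1, h2⟩ := planarProd_main hT
  refine ⟨aff_image_compact F c cT, aff_image_convex F c vT, ?_, ?_, ?_, ?_⟩
  · rw [vol_aff_image]
    exact mul_pos (abs_pos.2 hF) pT
  · rw [pettyRatio_aff_image hF]
    exact planarProd_two_pow hT
  · rw [pettyRatio_aff_image hF]
    exact h1
  · rw [pettyRatio_aff_image hF]
    exact h2

/-- the conjectured inequality for convex bodies that contain an affine image of a member of
`PlanarProd` of almost the same volume -/
theorem petty_near_aff {ι : Type} [Fintype ι] [DecidableEq ι] {T K : Set (ι → ℝ)}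
    (hT : PlanarProd T) {F : Matrix ι ι ℝ} (hF : F.det ≠ 0) (c : ι → ℝ)
    (hKc : IsCompact K) (hK : Convex ℝ K) (hTK : (fun x : ι → ℝ => c + F *ᵥ x) '' T ⊆ K)
    (hvol : pettyConst (Fintype.card ι) * vol K ^ (Fintype.card ι - 1)
      ≤ 2 ^ Fintype.card ι * (|F.det| * vol T) ^ (Fintype.card ι - 1)) :
    pettyConst (Fintype.card ι) ≤ pettyRatio K := by
  obtain ⟨cT, vT, pT, h2, -, -⟩ := planarProd_aff hT hF c
  have h1 := pettyRatio_mono vT cT hK hKc hTK pT
  have hvolTK : vol ((fun x : ι → ℝ => c + F *ᵥ x) '' T) ≤ vol K :=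
    ENNReal.toReal_mono hKc.measure_lt_top.ne (measure_mono hTK)
  have hKpos : 0 < vol K := lt_of_lt_of_le pT hvolTK
  rw [← vol_aff_image F c T] at hvol
  have h3 : pettyConst (Fintype.card ι)
      ≤ 2 ^ Fintype.card ι
        * (vol ((fun x : ι → ℝ => c + F *ᵥ x) '' T) / vol K) ^ (Fintype.card ι - 1) := by
    rw [div_pow, ← mul_div_assoc, le_div_iff₀ (pow_pos hKpos _)]
    exact hvol
  calc pettyConst (Fintype.card ι)
      ≤ 2 ^ Fintype.card ι
        * (vol ((fun x : ι → ℝ => c + F *ᵥ x) '' T) / vol K) ^ (Fintype.card ι - 1) := h3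
    _ ≤ pettyRatio ((fun x : ι → ℝ => c + F *ᵥ x) '' T)
        * (vol ((fun x : ι → ℝ => c + F *ᵥ x) '' T) / vol K) ^ (Fintype.card ι - 1) :=
        mul_le_mul_of_nonneg_right h2 (by positivity)
    _ ≤ pettyRatio K := h1

end

end Vale.Agent.Lib.P237
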