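import Vale.Agent.Lib.P237.Wallis
import Vale.Agent.Lib.P254.Class

/-!
# P237: the swept volume is the volume of the projection

For a compact convex `K ⊆ ℝ^n × ℝ` and `h ≥ 0`, the set swept by `K` along `h` times the last
basis vector has volume `vol K + h * vol (projection of K to ℝ^n)`.  Applied to the image of `K`
under an orthogonal matrix `Q` that maps `u` to `h` times the last basis vector, this identifies
`shadow K u` with the length of `u` times the volume of the orthogonal projection of `K` along `u`.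
-/

namespace Vale.Agent.Lib.P237

open MeasureTheory Set Matrix
open Vale.Agent.Lib.P254 (split split_mp split_apply affMap)

set_option linter.deprecated false
set_option linter.unusedSectionVars false
set_option linter.unusedVariables false

noncomputable section

variable {ι : Type*} [Fintype ι]

/-- the projection forgetting the last coordinate -/
def projL (K : Set (ι ⊕ Unit → ℝ)) : Set (ι → ℝ) :=
  {x | ∃ t : ℝ, (Sum.elim x (fun _ => t) : ι ⊕ Unit → ℝ) ∈ K}

/-- the fibre of `K` over `x` -/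
def fib (K : Set (ι ⊕ Unit → ℝ)) (x : ι → ℝ) : Set ℝ :=
  {t | (Sum.elim x (fun _ => t) : ι ⊕ Unit → ℝ) ∈ K}

def unsplit (q : (ι → ℝ) × ℝ) : ι ⊕ Unit → ℝ := Sum.elim q.1 (fun _ => q.2)

lemma unsplit_split (y : ι ⊕ Unit → ℝ) : unsplit (split y) = y := by
  funext j
  rcases j with i | u <;> rfl

lemma continuous_unsplit : Continuous (unsplit (ι := ι)) := by
  refine continuous_pi fun j => ?_
  rcases j with i | u
  · exact (continuous_apply i).comp continuous_fst
  · exact continuous_snd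

lemma volume_eq_lintegral_fib {K : Set (ι ⊕ Unit → ℝ)} (hK : IsClosed K) :
    volume K = ∫⁻ x, volume (fib K x) := by
  have e : K = split ⁻¹' (unsplit ⁻¹' K) := by
    ext y
    simp [unsplit_split]
  have hm : MeasurableSet (unsplit ⁻¹' K : Set ((ι → ℝ) × ℝ)) :=
    (hK.preimage continuous_unsplit).measurableSet
  conv_lhs => rw [e]
  rw [(split_mp (ι := ι)).measure_preimage hm.nullMeasurableSet, Measure.volume_eq_prod,
    Measure.prod_apply hm]
  rfl

lemma projL_eq_image (K : Set (ι ⊕ Unit → ℝ)) :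
    projL K = (fun (y : ι ⊕ Unit → ℝ) (i : ι) => y (Sum.inl i)) '' K := by
  ext x
  constructor
  · rintro ⟨t, ht⟩
    exact ⟨_, ht, by funext i; rfl⟩
  · rintro ⟨y, hy, rfl⟩
    refine ⟨y (Sum.inr ()), ?_⟩
    have e : (Sum.elim (fun i => y (Sum.inl i)) (fun _ => y (Sum.inr ())) : ι ⊕ Unit → ℝ) = y := by
      funext j
      rcases j with i | u <;> rfl
    rw [e]
    exact hy

lemma isCompact_projL {K : Set (ι ⊕ Unit → ℝ)} (hK : IsCompact K) : IsCompact (projL K) := by
  rw [projL_eq_image]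
  exact hK.image (continuous_pi fun i => continuous_apply (Sum.inl i))

lemma fib_nonempty_iff (K : Set (ι ⊕ Unit → ℝ)) (x : ι → ℝ) :
    (fib K x).Nonempty ↔ x ∈ projL K := Iff.rfl

lemma isCompact_fib {K : Set (ι ⊕ Unit → ℝ)} (hK : IsCompact K) (x : ι → ℝ) :
    IsCompact (fib K x) := by
  have hc : Continuous (fun t : ℝ => (Sum.elim x (fun _ => t) : ι ⊕ Unit → ℝ)) := by
    refine continuous_pi fun j => ?_
    rcases j with i | u
    · exact continuous_const
    · exact continuous_id
  have hcl : IsClosed (fib K x) := hK.isClosed.preimage hc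
  obtain ⟨R, hR⟩ := hK.isBounded.subset_closedBall (0 : ι ⊕ Unit → ℝ)
  have hb : Bornology.IsBounded (fib K x) := by
    refine (Metric.isBounded_closedBall (x := (0:ℝ)) (r := R)).subset ?_
    intro t ht
    have h1 := hR ht
    rw [mem_closedBall_zero_iff] at h1 ⊢
    have h2 := norm_le_pi_norm (Sum.elim x (fun _ => t) : ι ⊕ Unit → ℝ) (Sum.inr ())
    simp only [Sum.elim_inr] at h2
    exact h2.trans h1
  exact Metric.isCompact_of_isClosed_isBounded hcl hb

lemma convex_fib {K : Set (ι ⊕ Unit → ℝ)} (hK : Convex ℝ K) (x : ι → ℝ) :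
    Convex ℝ (fib K x) := by
  intro t₁ h₁ t₂ h₂ a b ha hb hab
  have e : (Sum.elim x (fun _ => a • t₁ + b • t₂) : ι ⊕ Unit → ℝ)
      = a • (Sum.elim x (fun _ => t₁) : ι ⊕ Unit → ℝ) + b • Sum.elim x (fun _ => t₂) := by
    funext j
    rcases j with i | u
    · simp only [Sum.elim_inl, Pi.add_apply, Pi.smul_apply, smul_eq_mul]
      rw [← add_mul, hab, one_mul]
    · simp
  show (Sum.elim x (fun _ => a • t₁ + b • t₂) : ι ⊕ Unit → ℝ) ∈ K
  rw [e]
  exact hK h₁ h₂ ha hb hab

/-- the last basis vector -/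
def eL : ι ⊕ Unit → ℝ := Sum.elim 0 (fun _ => 1)

lemma fib_swept (K : Set (ι ⊕ Unit → ℝ)) (h : ℝ) (x : ι → ℝ) :
    fib (swept K (h • eL)) x = {t | ∃ τ ∈ fib K x, ∃ r : ℝ, 0 ≤ r ∧ r ≤ 1 ∧ t = τ + r * h} := by
  ext t
  constructor
  · rintro ⟨y, hy, r, hr0, hr1, he⟩
    refine ⟨t - r * h, ?_, r, hr0, hr1, by ring⟩
    have e : (Sum.elim x (fun _ => t - r * h) : ι ⊕ Unit → ℝ) = y := by
      funext j
      have hj := congrFun he j
      rcases j with i | u
      · simp only [Sum.elim_inl, Pi.add_apply, Pi.smul_apply, eL, smul_eq_mul, Pi.zero_apply,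
          mul_zero, add_zero] at hj ⊢
        exact hj
      · simp only [Sum.elim_inr, Pi.add_apply, Pi.smul_apply, eL, smul_eq_mul, mul_one] at hj ⊢
        linarith
    show (Sum.elim x (fun _ => t - r * h) : ι ⊕ Unit → ℝ) ∈ K
    rw [e]
    exact hy
  · rintro ⟨τ, hτ, r, hr0, hr1, rfl⟩
    refine ⟨_, hτ, r, hr0, hr1, ?_⟩
    funext j
    rcases j with i | u
    · simp [eL]
    · simp [eL]

lemma volume_fib_swept {K : Set (ι ⊕ Unit → ℝ)} (hKc : IsCompact K) (hK : Convex ℝ K) {h : ℝ}
    (hh : 0 ≤ h) (x : ι → ℝ) :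
    volume (fib (swept K (h • eL)) x)
      = volume (fib K x) + (projL K).indicator (fun _ => ENNReal.ofReal h) x := by
  rw [fib_swept]
  by_cases hx : x ∈ projL K
  · rw [indicator_of_mem hx]
    have hne : (fib K x).Nonempty := hx
    have hconn : IsConnected (fib K x) := ⟨hne, (convex_fib hK x).isPreconnected⟩
    have hIcc := eq_Icc_of_connected_compact hconn (isCompact_fib hKc x)
    set a := sInf (fib K x)
    set b := sSup (fib K x)
    have hab : a ≤ b := by
      obtain ⟨t, ht⟩ := hne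
      rw [hIcc] at ht
      exact ht.1.trans ht.2
    have e : {t | ∃ τ ∈ fib K x, ∃ r : ℝ, 0 ≤ r ∧ r ≤ 1 ∧ t = τ + r * h} = Icc a (b + h) := by
      ext t
      constructor
      · rintro ⟨τ, hτ, r, hr0, hr1, rfl⟩
        rw [hIcc] at hτ
        have h1 : 0 ≤ r * h := mul_nonneg hr0 hh
        have h2 : r * h ≤ h := by nlinarith
        exact ⟨by linarith [hτ.1], by linarith [hτ.2]⟩
      · rintro ⟨h1, h2⟩
        rcases le_or_gt t b with htb | htb
        · exact ⟨t, by rw [hIcc]; exact ⟨h1, htb⟩, 0, le_refl 0, zero_le_one, by ring⟩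
        · have hpos : 0 < h := by linarith
          refine ⟨b, by rw [hIcc]; exact ⟨hab, le_refl b⟩, (t - b) / h,
            div_nonneg (by linarith) hpos.le, (div_le_one hpos).2 (by linarith), ?_⟩
          field_simp
          ring
    rw [e, hIcc, Real.volume_Icc, Real.volume_Icc, ← ENNReal.ofReal_add (by linarith) hh]
    congr 1
    ring
  · rw [indicator_of_notMem hx, add_zero]
    have hemp : fib K x = ∅ := by
      rw [← Set.not_nonempty_iff_eq_empty]
      exact hx
    rw [hemp]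
    have e : {t : ℝ | ∃ τ ∈ (∅ : Set ℝ), ∃ r : ℝ, 0 ≤ r ∧ r ≤ 1 ∧ t = τ + r * h} = ∅ := by
      ext t
      simp
    rw [e]

/-- the swept volume along the last coordinate direction -/
theorem vol_swept_eL {K : Set (ι ⊕ Unit → ℝ)} (hKc : IsCompact K) (hK : Convex ℝ K) {h : ℝ}
    (hh : 0 ≤ h) :
    vol (swept K (h • eL)) = vol K + h * vol (projL K) := by
  have hsc : IsCompact (swept K (h • eL)) := isCompact_sw hKc _ 1
  have hpm : MeasurableSet (projL K) := (isCompact_projL hKc).measurableSet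
  have h1 : volume (swept K (h • eL))
      = volume K + ENNReal.ofReal h * volume (projL K) := by
    rw [volume_eq_lintegral_fib hsc.isClosed, volume_eq_lintegral_fib hKc.isClosed]
    simp_rw [volume_fib_swept hKc hK hh]
    rw [lintegral_add_right _ (measurable_const.indicator hpm),
      lintegral_indicator_const hpm]
  unfold vol
  rw [h1, ENNReal.toReal_add hKc.measure_lt_top.ne
    (ENNReal.mul_ne_top ENNReal.ofReal_ne_top (isCompact_projL hKc).measure_lt_top.ne),
    ENNReal.toReal_mul, ENNReal.toReal_ofReal hh]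

lemma image_swept (Q : Matrix (ι ⊕ Unit) (ι ⊕ Unit) ℝ) (K : Set (ι ⊕ Unit → ℝ))
    (u : ι ⊕ Unit → ℝ) :
    (fun y => Q *ᵥ y) '' swept K u = swept ((fun y => Q *ᵥ y) '' K) (Q *ᵥ u) := by
  ext z
  constructor
  · rintro ⟨_, ⟨x, hx, t, ht0, ht1, rfl⟩, rfl⟩
    exact ⟨Q *ᵥ x, ⟨x, hx, rfl⟩, t, ht0, ht1,
      by simp only [Matrix.mulVec_add, Matrix.mulVec_smul]⟩
  · rintro ⟨_, ⟨x, hx, rfl⟩, t, ht0, ht1, rfl⟩
    exact ⟨x + t • u, ⟨x, hx, t, ht0, ht1, rfl⟩,
      by simp only [Matrix.mulVec_add, Matrix.mulVec_smul]⟩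

/-- `shadow K u` is the length of `u` times the volume of the projection of `K` along `u`:
for an orthogonal matrix `Q` that maps `u` to `h` times the last basis vector, `h ≥ 0`, it is `h`
times the volume of the image of `Q K` under the projection forgetting the last coordinate. -/
theorem shadow_eq_proj [DecidableEq ι] {K : Set (ι ⊕ Unit → ℝ)} (hKc : IsCompact K)
    (hK : Convex ℝ K) {Q : Matrix (ι ⊕ Unit) (ι ⊕ Unit) ℝ} (hQ : Q.transpose * Q = 1)
    {u : ι ⊕ Unit → ℝ} {h : ℝ} (hh : 0 ≤ h)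
    (hu : Q *ᵥ u = (Sum.elim (0 : ι → ℝ) (fun _ => h) : ι ⊕ Unit → ℝ)) :
    shadow K u = h * vol {x : ι → ℝ | ∃ t : ℝ,
      (Sum.elim x (fun _ => t) : ι ⊕ Unit → ℝ) ∈ (fun y => Q *ᵥ y) '' K} := by
  have hdet : |Q.det| = 1 := by
    have h1 : Q.det * Q.det = 1 := by
      have := congrArg Matrix.det hQ
      rwa [Matrix.det_mul, Matrix.det_transpose, Matrix.det_one] at this
    have h2 : |Q.det| * |Q.det| = 1 := by rw [← abs_mul, h1, abs_one]
    rcases mul_self_eq_one_iff.1 h2 with h3 | h3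
    · exact h3
    · linarith [abs_nonneg Q.det]
  have hdet0 : Q.det ≠ 0 := by
    intro h0
    rw [h0] at hdet
    simp at hdet
  have hfun : (fun y : ι ⊕ Unit → ℝ => Q *ᵥ y) = affMap Q 0 := by
    funext y
    simp [affMap]
  have hvol : ∀ S : Set (ι ⊕ Unit → ℝ), MeasurableSet S →
      vol ((fun y => Q *ᵥ y) '' S) = vol S := by
    intro S hS
    rw [hfun]
    have := Vale.Agent.Lib.P254.aff_vol hdet0 0 hS
    rw [hdet, one_mul] at this
    exact this
  have hK'c : IsCompact ((fun y : ι ⊕ Unit → ℝ => Q *ᵥ y) '' K) := by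
    rw [hfun]
    exact Vale.Agent.Lib.P254.aff_compact Q 0 hKc
  have hK'v : Convex ℝ ((fun y : ι ⊕ Unit → ℝ => Q *ᵥ y) '' K) := by
    rw [hfun]
    exact Vale.Agent.Lib.P254.aff_convex Q 0 hK
  have hue : Q *ᵥ u = h • (eL : ι ⊕ Unit → ℝ) := by
    rw [hu]
    funext j
    rcases j with i | w <;> simp [eL]
  have hsw := vol_swept_eL hK'c hK'v hh
  rw [← hue, ← image_swept,
    hvol _ (show MeasurableSet (swept K u) from (isCompact_sw hKc u 1).measurableSet),
    hvol _ hKc.measurableSet] at hsw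
  unfold shadow
  rw [hsw]
  show vol K + h * vol (projL ((fun y => Q *ᵥ y) '' K)) - vol K = _
  rw [add_sub_cancel_left]
  rfl

end

end Vale.Agent.Lib.P237
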