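import Vale.Agent.Lib.P237.Defs

/-!
# P237 (Petty's projection-volume conjecture): the constants and a family of products
-/

namespace Vale.Agent.Lib.P237

noncomputable section

/-- The volume of the Euclidean unit ball of `ℝ^n`: the power `n` of the square root of `π`
divided by the value of the Gamma function at `n / 2 + 1`. -/
def ballVol (n : ℕ) : ℝ := Real.sqrt Real.pi ^ n / Real.Gamma ((n:ℝ) / 2 + 1)

/-- The constant in the projection-volume inequality in dimension `n ≥ 1`: with `κ_m` the volume
of the unit ball of `ℝ^m`, the power `n` of `κ_(n-1)` times the power `2 - n` of `κ_n`, written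
as `κ_(n-1)^n * κ_n^2 / κ_n^n`. -/
def pettyConst (n : ℕ) : ℝ := ballVol (n - 1) ^ n * ballVol n ^ 2 / ballVol n ^ n

/-- The smallest family of sets that contains the segments `[0, h]`, `h > 0`, in `ℝ^1`, contains
the compact convex subsets of positive area of the plane, and is closed under Cartesian
products. -/
inductive PlanarProd : ∀ {ι : Type} [Fintype ι], Set (ι → ℝ) → Prop
  | seg (h : ℝ) (hh : 0 < h) : PlanarProd (seg h)
  | planar (A : Set (Fin 2 → ℝ)) (hc : IsCompact A) (hv : Convex ℝ A) (hpos : 0 < vol A) :
      PlanarProd A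
  | prod {ι κ : Type} [Fintype ι] [Fintype κ] [Nonempty ι] [Nonempty κ]
      (A : Set (ι → ℝ)) (B : Set (κ → ℝ)) (hA : PlanarProd A) (hB : PlanarProd B) :
      PlanarProd (prodSet A B)

end

end Vale.Agent.Lib.P237
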