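import Mathlib

/-!
# P237 (Petty's projection-volume conjecture): definitions

The projection body of a set `K ⊆ ℝ^κ` is described through its support function, written as a
swept volume: for a convex body `K` and a vector `u`, the Minkowski sum of `K` with the segment
from `0` to `u` has volume `vol K + |u| * vol_(n-1) (projection of K along u)` (Cavalieri), so
`shadow K u = vol (K + [0,u]) - vol K` is the support function of the projection body at `u`.
-/

namespace Vale.Agent.Lib.P237

open MeasureTheory

noncomputable section

/-- Lebesgue volume of a subset of `ℝ^κ`, as a real number. -/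
def vol {κ : Type*} [Fintype κ] (S : Set (κ → ℝ)) : ℝ := (volume S).toReal

/-- The set swept by `K` under the translations by `t • u`, `0 ≤ t ≤ 1`: the Minkowski sum of
`K` with the segment from `0` to `u`. -/
def swept {κ : Type*} (K : Set (κ → ℝ)) (u : κ → ℝ) : Set (κ → ℝ) :=
  {z | ∃ x ∈ K, ∃ t : ℝ, 0 ≤ t ∧ t ≤ 1 ∧ z = x + t • u}

/-- `shadow K u = vol (K + [0,u]) - vol K`.  For a convex body `K` this is the Euclidean length
of `u` times the volume, in dimension `n - 1`, of the orthogonal projection of `K` to the hyperplane
orthogonal to `u`, that is, the support function of the projection body of `K` at `u`. -/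
def shadow {κ : Type*} [Fintype κ] (K : Set (κ → ℝ)) (u : κ → ℝ) : ℝ :=
  vol (swept K u) - vol K

/-- The projection body of `K`: the closed convex set whose support function is `shadow K`. -/
def projBody {κ : Type*} [Fintype κ] (K : Set (κ → ℝ)) : Set (κ → ℝ) :=
  {x | ∀ u : κ → ℝ, ∑ i, x i * u i ≤ shadow K u}

/-- The normalized projection volume: the volume of the projection body of `K` divided by the
power `n - 1` of the volume of `K`, where `n` is the dimension. -/
def pettyRatio {κ : Type*} [Fintype κ] (K : Set (κ → ℝ)) : ℝ :=
  vol (projBody K) / vol K ^ (Fintype.card κ - 1)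

/-- The Cartesian product of `A ⊆ ℝ^ι` and `B ⊆ ℝ^κ`, as a subset of `ℝ^(ι ⊕ κ)`. -/
def prodSet {ι κ : Type*} (A : Set (ι → ℝ)) (B : Set (κ → ℝ)) : Set (ι ⊕ κ → ℝ) :=
  {z | (fun i => z (Sum.inl i)) ∈ A ∧ (fun j => z (Sum.inr j)) ∈ B}

/-- The segment `[0, h]` as a subset of the one-dimensional space `ℝ^Unit`. -/
def seg (h : ℝ) : Set (Unit → ℝ) := {x | 0 ≤ x () ∧ x () ≤ h}

end

end Vale.Agent.Lib.P237
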