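import Vale.Agent.Lib.P237.Cavalieri

/-!
# P237: monotonicity of the projection body and bodies close to products

If `T ⊆ K` are compact convex sets then the projection body of `T` is contained in that of `K`,
so `pettyRatio K` is at least `pettyRatio T` times the power `n - 1` of `vol T / vol K`.  Every
member of the family `PlanarProd` has `pettyRatio` at least `2^n`, which exceeds the
conjectured minimum.
-/

namespace Vale.Agent.Lib.P237

open MeasureTheory Set

set_option linter.deprecated false
set_option linter.unusedSectionVars false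
set_option linter.unusedVariables false

noncomputable section

section mono

variable {κ : Type*} [Fintype κ]

lemma sw_mono_set {T K : Set (κ → ℝ)} (hTK : T ⊆ K) (u : κ → ℝ) (a : ℝ) :
    sw T u a ⊆ sw K u a := by
  rintro z ⟨x, hx, r, h0, h1, rfl⟩
  exact ⟨x, hTK hx, r, h0, h1, rfl⟩

/-- the shadow function is monotone in the body -/
theorem shadow_mono {T K : Set (κ → ℝ)} (hT : Convex ℝ T) (hTc : IsCompact T)
    (hK : Convex ℝ K) (hKc : IsCompact K) (hTK : T ⊆ K) (u : κ → ℝ) :
    shadow T u ≤ shadow K u := by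
  by_contra hlt
  rw [not_le] at hlt
  have hδ : 0 < shadow T u - shadow K u := by linarith
  obtain ⟨N, hN⟩ := exists_nat_gt ((vol K - vol T) / (shadow T u - shadow K u))
  rw [div_lt_iff₀ hδ] at hN
  have h1 := vol_sw_nat hT hTc u (zero_le_one' ℝ) N
  have h2 := vol_sw_nat hK hKc u (zero_le_one' ℝ) N
  have e1 : vol (sw T u 1) - vol T = shadow T u := rfl
  have e2 : vol (sw K u 1) - vol K = shadow K u := rfl
  rw [e1] at h1
  rw [e2] at h2
  have h3 : vol (sw T u (N * 1)) ≤ vol (sw K u (N * 1)) :=
    ENNReal.toReal_mono (isCompact_sw hKc u _).measure_lt_top.ne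
      (measure_mono (sw_mono_set hTK u _))
  nlinarith

lemma projBody_mono {T K : Set (κ → ℝ)} (hT : Convex ℝ T) (hTc : IsCompact T)
    (hK : Convex ℝ K) (hKc : IsCompact K) (hTK : T ⊆ K) : projBody T ⊆ projBody K :=
  fun x hx u => (hx u).trans (shadow_mono hT hTc hK hKc hTK u)

/-- comparison of the normalized projection volumes of nested bodies -/
theorem pettyRatio_mono [DecidableEq κ] {T K : Set (κ → ℝ)} (hT : Convex ℝ T)
    (hTc : IsCompact T) (hK : Convex ℝ K) (hKc : IsCompact K) (hTK : T ⊆ K) (hpos : 0 < vol T) :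
    pettyRatio T * (vol T / vol K) ^ (Fintype.card κ - 1) ≤ pettyRatio K := by
  have hvol : vol T ≤ vol K :=
    ENNReal.toReal_mono hKc.measure_lt_top.ne (measure_mono hTK)
  have hKpos : 0 < vol K := lt_of_lt_of_le hpos hvol
  have hproj : vol (projBody T) ≤ vol (projBody K) :=
    ENNReal.toReal_mono (projBody_finite K) (measure_mono (projBody_mono hT hTc hK hKc hTK))
  unfold pettyRatio
  rw [div_pow]
  have e : vol (projBody T) / vol T ^ (Fintype.card κ - 1)
      * (vol T ^ (Fintype.card κ - 1) / vol K ^ (Fintype.card κ - 1))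
      = vol (projBody T) / vol K ^ (Fintype.card κ - 1) := by
    have h1 : vol T ^ (Fintype.card κ - 1) ≠ 0 := (pow_pos hpos _).ne'
    field_simp
  rw [e]
  exact div_le_div_of_nonneg_right hproj (pow_pos hKpos _).le

end mono

section bounds

lemma pettyConst_le_two_pow (n : ℕ) : pettyConst n ≤ 2 ^ n := by
  induction n with
  | zero => rw [pettyConst_zero]; norm_num
  | succ n ih =>
    have h := pettyConst_add_le n 1
    rw [pettyConst_one] at h
    rw [pow_succ]
    linarith

lemma pettyConst_lt_two_pow {n : ℕ} (hn : 3 ≤ n) : pettyConst n < 2 ^ n := by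
  induction n, hn using Nat.le_induction with
  | base =>
    rw [pettyConst_three]
    nlinarith [Real.pi_lt_d2, Real.pi_pos]
  | succ n hn ih =>
    have h := pettyConst_add_le n 1
    rw [pettyConst_one] at h
    rw [pow_succ]
    linarith

/-- every member of the family `PlanarProd` has normalized projection volume at least `2^n` -/
theorem planarProd_two_pow {ι : Type} [Fintype ι] {K : Set (ι → ℝ)} (h : PlanarProd K) :
    (2:ℝ) ^ Fintype.card ι ≤ pettyRatio K := by
  induction h with
  | seg h hh =>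
    rw [pettyRatio_seg hh.le]
    simp
  | planar A hc hv hpos =>
    have := pettyRatio_planar hv hc hpos
    simp only [Fintype.card_fin]
    linarith
  | prod A B hA hB ihA ihB =>
    obtain ⟨cA, vA, pA, -, -⟩ := planarProd_main hA
    obtain ⟨cB, vB, pB, -, -⟩ := planarProd_main hB
    rw [pettyRatio_prod vA cA vB cB pA pB, Fintype.card_sum, pow_add]
    exact mul_le_mul ihA ihB (by positivity) ((by positivity : (0:ℝ) ≤ 2 ^ _).trans ihA)

/-- the conjectured inequality for bodies that contain a member of `PlanarProd` of almost the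
same volume -/
theorem petty_near {ι : Type} [Fintype ι] [DecidableEq ι] {T K : Set (ι → ℝ)}
    (hT : PlanarProd T) (hKc : IsCompact K) (hK : Convex ℝ K) (hTK : T ⊆ K)
    (hvol : pettyConst (Fintype.card ι) * vol K ^ (Fintype.card ι - 1)
      ≤ 2 ^ Fintype.card ι * vol T ^ (Fintype.card ι - 1)) :
    pettyConst (Fintype.card ι) ≤ pettyRatio K := by
  obtain ⟨cT, vT, pT, -, -⟩ := planarProd_main hT
  have h1 := pettyRatio_mono vT cT hK hKc hTK pT
  have h2 := planarProd_two_pow hT
  have hvolTK : vol T ≤ vol K :=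
    ENNReal.toReal_mono hKc.measure_lt_top.ne (measure_mono hTK)
  have hKpos : 0 < vol K := lt_of_lt_of_le pT hvolTK
  have h3 : pettyConst (Fintype.card ι)
      ≤ 2 ^ Fintype.card ι * (vol T / vol K) ^ (Fintype.card ι - 1) := by
    rw [div_pow, ← mul_div_assoc, le_div_iff₀ (pow_pos hKpos _)]
    exact hvol
  calc pettyConst (Fintype.card ι)
      ≤ 2 ^ Fintype.card ι * (vol T / vol K) ^ (Fintype.card ι - 1) := h3
    _ ≤ pettyRatio T * (vol T / vol K) ^ (Fintype.card ι - 1) :=
        mul_le_mul_of_nonneg_right h2 (by positivity)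
    _ ≤ pettyRatio K := h1

/-- convex bodies of `ℝ^3` close to a cylinder -/
theorem petty_near_cylinder {A : Set (Fin 2 → ℝ)} {h : ℝ} {K : Set (Fin 2 ⊕ Unit → ℝ)}
    (hAc : IsCompact A) (hA : Convex ℝ A) (hα : 0 < vol A) (hh : 0 < h) (hKc : IsCompact K)
    (hK : Convex ℝ K) (hTK : prodSet A (seg h) ⊆ K)
    (hvol : vol K ≤ 1039 / 1000 * (vol A * h)) :
    pettyConst 3 < pettyRatio K := by
  have hT : PlanarProd (prodSet A (seg h)) :=
    PlanarProd.prod A (seg h) (PlanarProd.planar A hAc hA hα) (PlanarProd.seg h hh)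
  obtain ⟨cT, vT, pT, -, -⟩ := planarProd_main hT
  have h1 := pettyRatio_mono vT cT hK hKc hTK pT
  have h2 := planarProd_two_pow hT
  have hvT : vol (prodSet A (seg h)) = vol A * h := by rw [vol_prodSet, vol_seg hh.le]
  have hcard : Fintype.card (Fin 2 ⊕ Unit) = 3 := by simp
  rw [hcard] at h1 h2
  have e31 : 3 - 1 = 2 := rfl
  rw [e31, hvT] at h1
  have hP : 0 < vol A * h := mul_pos hα hh
  have hvolTK : vol A * h ≤ vol K := by
    rw [← hvT]
    exact ENNReal.toReal_mono hKc.measure_lt_top.ne (measure_mono hTK)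
  have hKpos : 0 < vol K := lt_of_lt_of_le hP hvolTK
  have hq : (1000 / 1039 : ℝ) ≤ vol A * h / vol K := by
    rw [le_div_iff₀ hKpos]
    linarith
  have hq2 : (1000 / 1039 : ℝ) ^ 2 ≤ (vol A * h / vol K) ^ 2 :=
    pow_le_pow_left₀ (by norm_num) hq 2
  have h4 : (8:ℝ) * (1000 / 1039) ^ 2 ≤ pettyRatio K := by
    calc (8:ℝ) * (1000 / 1039) ^ 2 ≤ 2 ^ 3 * (vol A * h / vol K) ^ 2 := by
          norm_num at hq2 ⊢
          linarith
      _ ≤ pettyRatio (prodSet A (seg h)) * (vol A * h / vol K) ^ 2 :=
          mul_le_mul_of_nonneg_right h2 (by positivity)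
      _ ≤ pettyRatio K := h1
  have h5 : pettyConst 3 < (8:ℝ) * (1000 / 1039) ^ 2 := by
    rw [pettyConst_three]
    have hpi := Real.pi_lt_d4
    have hpos := Real.pi_pos
    have : Real.pi ^ 2 < 3.1416 ^ 2 := by nlinarith
    norm_num at this ⊢
    linarith
  exact h5.trans_le h4

end bounds

end

end Vale.Agent.Lib.P237
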