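import Vale.Agent.Lib.P237.Swept
import Vale.Agent.Lib.P243.PlanarBM

/-!
# P237: projection bodies of products, segments, and planar bodies
-/

namespace Vale.Agent.Lib.P237

open MeasureTheory Set
open scoped Pointwise

noncomputable section

section body

variable {ι κ : Type*} [Fintype ι] [Fintype κ]

/-- the projection body of a product -/
theorem projBody_prod {A : Set (ι → ℝ)} {B : Set (κ → ℝ)} (hA : Convex ℝ A) (hAc : IsCompact A)
    (hB : Convex ℝ B) (hBc : IsCompact B) (hα : 0 < vol A) (hβ : 0 < vol B) :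
    projBody (prodSet A B) = prodSet (vol B • projBody A) (vol A • projBody B) := by
  ext z
  constructor
  · intro hz
    constructor
    · refine Set.mem_smul_set.2 ⟨(vol B)⁻¹ • (fun i => z (Sum.inl i)), ?_, ?_⟩
      · intro u
        have h := hz (Sum.elim u 0)
        rw [shadow_prod hA hAc hB hBc, shadow_zero, mul_zero, add_zero,
          Fintype.sum_sum_type] at h
        simp only [Sum.elim_inl, Sum.elim_inr, Pi.zero_apply, mul_zero, Finset.sum_const_zero,
          add_zero] at h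
        have e : ∑ i, ((vol B)⁻¹ • fun i => z (Sum.inl i)) i * u i
            = (vol B)⁻¹ * ∑ i, z (Sum.inl i) * u i := by
          rw [Finset.mul_sum]
          refine Finset.sum_congr rfl fun i _ => ?_
          simp [mul_assoc]
        rw [e, inv_mul_le_iff₀ hβ]
        exact h
      · rw [smul_smul, mul_inv_cancel₀ hβ.ne', one_smul]
    · refine Set.mem_smul_set.2 ⟨(vol A)⁻¹ • (fun j => z (Sum.inr j)), ?_, ?_⟩
      · intro v
        have h := hz (Sum.elim 0 v)
        rw [shadow_prod hA hAc hB hBc, shadow_zero, mul_zero, zero_add,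
          Fintype.sum_sum_type] at h
        simp only [Sum.elim_inl, Sum.elim_inr, Pi.zero_apply, mul_zero, Finset.sum_const_zero,
          zero_add] at h
        have e : ∑ j, ((vol A)⁻¹ • fun j => z (Sum.inr j)) j * v j
            = (vol A)⁻¹ * ∑ j, z (Sum.inr j) * v j := by
          rw [Finset.mul_sum]
          refine Finset.sum_congr rfl fun j _ => ?_
          simp [mul_assoc]
        rw [e, inv_mul_le_iff₀ hα]
        exact h
      · rw [smul_smul, mul_inv_cancel₀ hα.ne', one_smul]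
  · rintro ⟨hzl, hzr⟩
    obtain ⟨x, hx, hxe⟩ := Set.mem_smul_set.1 hzl
    obtain ⟨y, hy, hye⟩ := Set.mem_smul_set.1 hzr
    intro w
    have hw : w = Sum.elim (fun i => w (Sum.inl i)) (fun j => w (Sum.inr j)) := by
      funext s
      rcases s with i | j <;> rfl
    rw [hw, shadow_prod hA hAc hB hBc, Fintype.sum_sum_type]
    simp only [Sum.elim_inl, Sum.elim_inr]
    have h1 : ∑ i, z (Sum.inl i) * w (Sum.inl i) = vol B * ∑ i, x i * w (Sum.inl i) := by
      rw [Finset.mul_sum]
      refine Finset.sum_congr rfl fun i _ => ?_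
      have := congrFun hxe i
      simp only [Pi.smul_apply, smul_eq_mul] at this
      rw [← this]
      ring
    have h2 : ∑ j, z (Sum.inr j) * w (Sum.inr j) = vol A * ∑ j, y j * w (Sum.inr j) := by
      rw [Finset.mul_sum]
      refine Finset.sum_congr rfl fun j _ => ?_
      have := congrFun hye j
      simp only [Pi.smul_apply, smul_eq_mul] at this
      rw [← this]
      ring
    rw [h1, h2]
    have h3 := mul_le_mul_of_nonneg_left (hx (fun i => w (Sum.inl i))) hβ.le
    have h4 := mul_le_mul_of_nonneg_left (hy (fun j => w (Sum.inr j))) hα.le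
    linarith

lemma vol_smul {c : ℝ} (hc : 0 ≤ c) (S : Set (κ → ℝ)) :
    vol (c • S) = c ^ Fintype.card κ * vol S := by
  unfold vol
  rw [Measure.addHaar_smul, Module.finrank_fintype_fun_eq_card, ENNReal.toReal_mul,
    ENNReal.toReal_ofReal (abs_nonneg _), abs_of_nonneg (pow_nonneg hc _)]

/-- the normalized projection volume is multiplicative on products -/
theorem pettyRatio_prod [Nonempty ι] [Nonempty κ] {A : Set (ι → ℝ)} {B : Set (κ → ℝ)}
    (hA : Convex ℝ A) (hAc : IsCompact A) (hB : Convex ℝ B) (hBc : IsCompact B)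
    (hα : 0 < vol A) (hβ : 0 < vol B) :
    pettyRatio (prodSet A B) = pettyRatio A * pettyRatio B := by
  unfold pettyRatio
  rw [projBody_prod hA hAc hB hBc hα hβ, vol_prodSet, vol_smul hβ.le, vol_smul hα.le,
    vol_prodSet, Fintype.card_sum]
  obtain ⟨k, hk⟩ : ∃ k, Fintype.card ι = k + 1 :=
    Nat.exists_eq_succ_of_ne_zero Fintype.card_ne_zero
  obtain ⟨l, hl⟩ : ∃ l, Fintype.card κ = l + 1 :=
    Nat.exists_eq_succ_of_ne_zero Fintype.card_ne_zero
  rw [hk, hl]
  have e1 : k + 1 + (l + 1) - 1 = k + l + 1 := by omega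
  have e2 : k + 1 - 1 = k := by omega
  have e3 : l + 1 - 1 = l := by omega
  rw [e1, e2, e3]
  have h1 : vol A ≠ 0 := hα.ne'
  have h2 : vol B ≠ 0 := hβ.ne'
  field_simp
  ring

end body

section segment

lemma volume_unit_Icc (a b : ℝ) :
    volume {x : Unit → ℝ | a ≤ x () ∧ x () ≤ b} = ENNReal.ofReal (b - a) := by
  have hmp := volume_preserving_funUnique Unit ℝ
  have e : {x : Unit → ℝ | a ≤ x () ∧ x () ≤ b}
      = (MeasurableEquiv.funUnique Unit ℝ) ⁻¹' (Icc a b) := by
    ext x
    simp [MeasurableEquiv.funUnique]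
  rw [e, hmp.measure_preimage measurableSet_Icc.nullMeasurableSet, Real.volume_Icc]

lemma vol_unit_Icc {a b : ℝ} (hab : a ≤ b) : vol {x : Unit → ℝ | a ≤ x () ∧ x () ≤ b} = b - a := by
  unfold vol
  rw [volume_unit_Icc, ENNReal.toReal_ofReal (by linarith)]

lemma sw_seg {h : ℝ} (hh : 0 ≤ h) (u : Unit → ℝ) :
    sw (seg h) u 1 = {z : Unit → ℝ | min 0 (u ()) ≤ z () ∧ z () ≤ h + max 0 (u ())} := by
  ext z
  constructor
  · rintro ⟨x, ⟨hx0, hx1⟩, r, h0, h1, rfl⟩
    simp only [Set.mem_ofPred_eq, Pi.add_apply, Pi.smul_apply, smul_eq_mul]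
    rcases le_total 0 (u ()) with hu | hu
    · rw [min_eq_left hu, max_eq_right hu]
      constructor
      · nlinarith [mul_nonneg h0 hu]
      · nlinarith [mul_nonneg (sub_nonneg.2 h1) hu]
    · rw [min_eq_right hu, max_eq_left hu]
      constructor
      · nlinarith [mul_nonneg (sub_nonneg.2 h1) (neg_nonneg.2 hu)]
      · nlinarith [mul_nonneg h0 (neg_nonneg.2 hu)]
  · rintro ⟨hz0, hz1⟩
    rcases le_total 0 (u ()) with hu | hu
    · rw [min_eq_left hu] at hz0
      rw [max_eq_right hu] at hz1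
      by_cases hzh : z () ≤ h
      · exact ⟨z, ⟨hz0, hzh⟩, 0, le_rfl, zero_le_one, by simp⟩
      · have hzh' : h < z () := lt_of_not_ge hzh
        have hupos : 0 < u () := by linarith
        refine ⟨fun _ => h, ⟨hh, le_rfl⟩, (z () - h) / u (), div_nonneg (by linarith) hupos.le,
          (div_le_one hupos).2 (by linarith), ?_⟩
        funext t
        show z () = h + (z () - h) / u () * u ()
        rw [div_mul_cancel₀ _ hupos.ne']
        ring
    · rw [min_eq_right hu] at hz0
      rw [max_eq_left hu] at hz1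
      by_cases hz00 : 0 ≤ z ()
      · exact ⟨z, ⟨hz00, by linarith⟩, 0, le_rfl, zero_le_one, by simp⟩
      · have hz00' : z () < 0 := lt_of_not_ge hz00
        have huneg : u () < 0 := by linarith
        refine ⟨fun _ => 0, ⟨le_rfl, hh⟩, z () / u (),
          div_nonneg_of_nonpos hz00'.le huneg.le, ?_, ?_⟩
        · rw [div_le_one_of_neg huneg]
          exact hz0
        · funext t
          show z () = 0 + z () / u () * u ()
          rw [div_mul_cancel₀ _ huneg.ne]
          ring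

lemma vol_seg {h : ℝ} (hh : 0 ≤ h) : vol (seg h) = h := by
  have := vol_unit_Icc hh
  simpa [seg] using this

lemma shadow_seg {h : ℝ} (hh : 0 ≤ h) (u : Unit → ℝ) : shadow (seg h) u = |u ()| := by
  unfold shadow
  rw [swept_eq, sw_seg hh, vol_seg hh]
  have hle : min 0 (u ()) ≤ h + max 0 (u ()) := by
    have h1 : min 0 (u ()) ≤ 0 := min_le_left _ _
    have h2 : 0 ≤ max 0 (u ()) := le_max_left _ _
    linarith
  rw [vol_unit_Icc hle]
  rcases le_total 0 (u ()) with hu | hu
  · rw [min_eq_left hu, max_eq_right hu, abs_of_nonneg hu]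
    ring
  · rw [min_eq_right hu, max_eq_left hu, abs_of_nonpos hu]
    ring

lemma projBody_seg {h : ℝ} (hh : 0 ≤ h) :
    projBody (seg h) = {x : Unit → ℝ | -1 ≤ x () ∧ x () ≤ 1} := by
  ext x
  constructor
  · intro hx
    have h1 := hx (fun _ => 1)
    have h2 := hx (fun _ => -1)
    rw [shadow_seg hh] at h1 h2
    simp at h1 h2
    exact ⟨by linarith, h1⟩
  · rintro ⟨h1, h2⟩ u
    rw [shadow_seg hh]
    simp only [Finset.univ_unique, PUnit.default_eq_unit, Finset.sum_singleton]
    have h3 : x () * u () ≤ |x () * u ()| := le_abs_self _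
    have h4 : |x () * u ()| = |x ()| * |u ()| := abs_mul _ _
    have h5 : |x ()| ≤ 1 := abs_le.2 ⟨h1, h2⟩
    nlinarith [abs_nonneg (u ())]

theorem pettyRatio_seg {h : ℝ} (hh : 0 ≤ h) : pettyRatio (seg h) = 2 := by
  unfold pettyRatio
  rw [projBody_seg hh, vol_unit_Icc (by norm_num)]
  simp
  norm_num

end segment

section planar

/-- the rotation by a right angle in the plane -/
def rot (d : Fin 2 → ℝ) : Fin 2 → ℝ := ![-d 1, d 0]

lemma box_volume (n : ℝ) : volume (Icc (0 : Fin 2 → ℝ) ![1, n]) = ENNReal.ofReal n := by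
  rw [Real.volume_Icc_pi, Fin.prod_univ_two]
  simp

/-- the area swept by a chord of `A` bounds the shadow function from below -/
lemma det_le_shadow {A : Set (Fin 2 → ℝ)} (hA : Convex ℝ A) (hAc : IsCompact A)
    {p q : Fin 2 → ℝ} (hp : p ∈ A) (hq : q ∈ A) (u : Fin 2 → ℝ) :
    (p 0 - q 0) * u 1 - (p 1 - q 1) * u 0 ≤ shadow A u := by
  set M : Matrix (Fin 2) (Fin 2) ℝ := !![p 0 - q 0, u 0; p 1 - q 1, u 1] with hM
  have hdet : M.det = (p 0 - q 0) * u 1 - u 0 * (p 1 - q 1) := by
    rw [hM, Matrix.det_fin_two_of]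
  have hsub : ∀ n : ℕ, tr q (Matrix.toLin' M '' Icc (0 : Fin 2 → ℝ) ![1, (n:ℝ)]) ⊆ sw A u n := by
    intro n z hz
    obtain ⟨s, hs, hzs⟩ := hz
    have hs0 := hs.1 0
    have hs1 := hs.2 0
    have ht0 := hs.1 1
    have ht1 := hs.2 1
    simp at hs0 hs1 ht0 ht1
    refine ⟨(1 - s 0) • q + s 0 • p, hA hq hp (by linarith) hs0 (by ring), s 1, ht0, ht1, ?_⟩
    have hzs' : Matrix.toLin' M s = z + -q := hzs
    have hz' : z = q + Matrix.toLin' M s := by
      rw [hzs']
      abel
    rw [hz']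
    funext i
    fin_cases i
    · simp [hM, dotProduct, Fin.sum_univ_two]
      ring
    · simp [hM, dotProduct, Fin.sum_univ_two]
      ring
  have hbound : ∀ n : ℕ, |M.det| * n ≤ n * shadow A u + vol A := by
    intro n
    have h1 : volume (tr q (Matrix.toLin' M '' Icc (0 : Fin 2 → ℝ) ![1, (n:ℝ)]))
        = ENNReal.ofReal |M.det| * ENNReal.ofReal n := by
      rw [volume_tr, Measure.addHaar_image_linearMap, LinearMap.det_toLin', box_volume]
    have hfin : volume (sw A u (n:ℝ)) ≠ ⊤ := (isCompact_sw hAc u n).measure_lt_top.ne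
    have h2 := ENNReal.toReal_mono hfin (measure_mono (hsub n))
    rw [h1, ENNReal.toReal_mul, ENNReal.toReal_ofReal (abs_nonneg _),
      ENNReal.toReal_ofReal (Nat.cast_nonneg n)] at h2
    have h3 := vol_sw_nat hA hAc u (zero_le_one' ℝ) n
    rw [mul_one] at h3
    have h4 : vol (sw A u 1) - vol A = shadow A u := rfl
    rw [h4] at h3
    have h5 : (volume (sw A u n)).toReal = vol (sw A u n) := rfl
    linarith
  have hα : 0 ≤ vol A := ENNReal.toReal_nonneg
  have habs : |M.det| ≤ shadow A u := by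
    apply le_of_forall_pos_le_add
    intro ε hε
    obtain ⟨N, hN⟩ := exists_nat_gt (vol A / ε)
    have hN0 : (0:ℝ) < N := lt_of_le_of_lt (div_nonneg hα hε.le) hN
    have h1 := hbound N
    rw [div_lt_iff₀ hε] at hN
    by_contra hcon
    have hcon' : shadow A u + ε < |M.det| := lt_of_not_ge hcon
    nlinarith
  have h1 := le_abs_self M.det
  rw [hdet] at h1 habs
  have e : u 0 * (p 1 - q 1) = (p 1 - q 1) * u 0 := mul_comm _ _
  rw [e] at h1 habs
  linarith

lemma rot_mem_projBody {A : Set (Fin 2 → ℝ)} (hA : Convex ℝ A) (hAc : IsCompact A)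
    {p q : Fin 2 → ℝ} (hp : p ∈ A) (hq : q ∈ A) : rot (p - q) ∈ projBody A := by
  intro u
  have h := det_le_shadow hA hAc hp hq u
  simp only [Fin.sum_univ_two, rot, Matrix.cons_val_zero, Matrix.cons_val_one, Pi.sub_apply]
  linarith

lemma projBody_finite {κ : Type*} [Fintype κ] [DecidableEq κ] (K : Set (κ → ℝ)) :
    volume (projBody K) ≠ ⊤ := by
  have hsub : projBody K ⊆ Icc (fun i => -shadow K (-Pi.single i 1))
      (fun i => shadow K (Pi.single i 1)) := by
    intro x hx
    constructor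
    · intro i
      have h := hx (-Pi.single i 1)
      simp [Pi.single_apply] at h
      show -shadow K (-Pi.single i 1) ≤ x i
      linarith
    · intro i
      have h := hx (Pi.single i 1)
      simp [Pi.single_apply] at h
      exact h
  exact ne_top_of_le_ne_top isCompact_Icc.measure_lt_top.ne (measure_mono hsub)

/-- the difference body has at least four times the area (planar Brunn-Minkowski) -/
lemma four_vol_le {A : Set (Fin 2 → ℝ)} (hA : Convex ℝ A) (hAc : IsCompact A)
    (hne : A.Nonempty) :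
    4 * vol A ≤ vol {x : Fin 2 → ℝ | ∃ p ∈ A, ∃ q ∈ A, x = rot (p - q)} := by
  set φ : (Fin 2 → ℝ) → ℝ × ℝ := fun x => (x 0, x 1) with hφ
  have hφc : Continuous φ := by fun_prop
  have hφvol : ∀ S : Set (Fin 2 → ℝ), volume (φ '' S) = volume S := by
    intro S
    have hmp := volume_preserving_finTwoArrow ℝ
    have e1 : φ '' S = (MeasurableEquiv.finTwoArrow (α := ℝ)).symm ⁻¹' S :=
      (MeasurableEquiv.finTwoArrow (α := ℝ)).image_eq_preimage_symm S
    rw [e1]
    exact (hmp.symm _).measure_preimage_equiv S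
  set S : Set (Fin 2 → ℝ) := (fun pq : (Fin 2 → ℝ) × (Fin 2 → ℝ) => pq.1 - pq.2) '' (A ×ˢ A)
    with hS
  have hSc : IsCompact S := (hAc.prod hAc).image (by fun_prop)
  set X : Set (ℝ × ℝ) := φ '' A with hX
  have hXc : IsCompact X := hAc.image hφc
  have hXne : X.Nonempty := hne.image φ
  have hXv : Convex ℝ X := by
    rintro _ ⟨x, hx, rfl⟩ _ ⟨y, hy, rfl⟩ a b ha hb hab
    exact ⟨a • x + b • y, hA hx hy ha hb hab, by simp [hφ]⟩
  have bm := Vale.Agent.Lib.P243.planar_bm hXv hXc hXne hXv.neg hXc.neg hXne.neg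
    (a := 1 / 2) (b := 1 / 2) (by norm_num) (by norm_num) (by norm_num)
  have hneg : volume (-X) = volume X := Measure.measure_neg volume X
  rw [hneg] at bm
  have hXA : (volume X).toReal = vol A := by
    rw [hX, hφvol]
    rfl
  have hZsub : (1 / 2 : ℝ) • X + (1 / 2 : ℝ) • (-X) ⊆ (1 / 2 : ℝ) • (φ '' S) := by
    intro z hz
    obtain ⟨a, ha, b, hb, rfl⟩ := Set.mem_add.1 hz
    obtain ⟨x, hx, rfl⟩ := Set.mem_smul_set.1 ha
    obtain ⟨y, hy, rfl⟩ := Set.mem_smul_set.1 hb
    obtain ⟨p, hp, rfl⟩ := hx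
    have hy' : -y ∈ X := Set.mem_neg.1 hy
    obtain ⟨q, hq, hqy⟩ := hy'
    refine Set.mem_smul_set.2 ⟨φ (p - q), ⟨p - q, ⟨(p, q), ⟨hp, hq⟩, rfl⟩, rfl⟩, ?_⟩
    have hy2 : y = -φ q := by
      rw [hqy]
      simp
    rw [hy2]
    simp only [hφ, Pi.sub_apply]
    ext
    · simp
      ring
    · simp
      ring
  have hfr : Module.finrank ℝ (ℝ × ℝ) = 2 := by simp
  have hZfin : volume ((1 / 2 : ℝ) • (φ '' S)) ≠ ⊤ :=
    ((hSc.image hφc).smul (1 / 2 : ℝ)).measure_lt_top.ne
  have h4 : (volume ((1 / 2 : ℝ) • (φ '' S))).toReal = 1 / 4 * (volume S).toReal := by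
    rw [Measure.addHaar_smul, hfr, hφvol, ENNReal.toReal_mul,
      ENNReal.toReal_ofReal (abs_nonneg _)]
    norm_num
  set R : Matrix (Fin 2) (Fin 2) ℝ := !![0, -1; 1, 0] with hR
  have hD : {x : Fin 2 → ℝ | ∃ p ∈ A, ∃ q ∈ A, x = rot (p - q)} = Matrix.toLin' R '' S := by
    ext x
    constructor
    · rintro ⟨p, hp, q, hq, rfl⟩
      refine ⟨p - q, ⟨(p, q), ⟨hp, hq⟩, rfl⟩, ?_⟩
      funext i
      fin_cases i <;> simp [rot, hR, dotProduct, Fin.sum_univ_two]
    · rintro ⟨_, ⟨⟨p, q⟩, ⟨hp, hq⟩, rfl⟩, rfl⟩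
      refine ⟨p, hp, q, hq, ?_⟩
      funext i
      fin_cases i <;> simp [rot, hR, dotProduct, Fin.sum_univ_two]
  have hDv : vol {x : Fin 2 → ℝ | ∃ p ∈ A, ∃ q ∈ A, x = rot (p - q)} = (volume S).toReal := by
    unfold vol
    rw [hD, Measure.addHaar_image_linearMap, LinearMap.det_toLin', hR, Matrix.det_fin_two_of]
    norm_num
  have h1 : Real.sqrt (volume X).toReal
      ≤ Real.sqrt (volume ((1 / 2 : ℝ) • X + (1 / 2 : ℝ) • (-X))).toReal := by linarith
  have h2 : (volume X).toReal ≤ (volume ((1 / 2 : ℝ) • X + (1 / 2 : ℝ) • (-X))).toReal :=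
    (Real.sqrt_le_sqrt_iff ENNReal.toReal_nonneg).1 h1
  have h3 : (volume ((1 / 2 : ℝ) • X + (1 / 2 : ℝ) • (-X))).toReal
      ≤ (volume ((1 / 2 : ℝ) • (φ '' S))).toReal :=
    ENNReal.toReal_mono hZfin (measure_mono hZsub)
  rw [hDv]
  linarith

/-- the planar case of the projection inequality, in the present definitions -/
theorem pettyRatio_planar {A : Set (Fin 2 → ℝ)} (hA : Convex ℝ A) (hAc : IsCompact A)
    (hα : 0 < vol A) : 4 ≤ pettyRatio A := by
  have hne : A.Nonempty := by
    by_contra h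
    rw [Set.not_nonempty_iff_eq_empty] at h
    rw [h] at hα
    simp [vol] at hα
  have h4 := four_vol_le hA hAc hne
  have hsub : {x : Fin 2 → ℝ | ∃ p ∈ A, ∃ q ∈ A, x = rot (p - q)} ⊆ projBody A := by
    rintro _ ⟨p, hp, q, hq, rfl⟩
    exact rot_mem_projBody hA hAc hp hq
  have hmono : vol {x : Fin 2 → ℝ | ∃ p ∈ A, ∃ q ∈ A, x = rot (p - q)} ≤ vol (projBody A) :=
    ENNReal.toReal_mono (projBody_finite A) (measure_mono hsub)
  unfold pettyRatio
  rw [Fintype.card_fin]
  have e : (2 - 1 : ℕ) = 1 := rfl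
  rw [e, pow_one, le_div_iff₀ hα]
  linarith

end planar

end

end Vale.Agent.Lib.P237
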