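import Vale.Agent.Lib.P237.Defs
import Vale.Agent.Lib.P254.Product

/-!
# P237: swept volumes, additivity, and the product formula for the shadow function
-/

namespace Vale.Agent.Lib.P237

open MeasureTheory Set

noncomputable section

section basics

variable {κ : Type*} [Fintype κ]

set_option linter.unusedSectionVars false

/-- sweep of `K` along `u` with parameter range `[0, a]` -/
def sw (K : Set (κ → ℝ)) (u : κ → ℝ) (a : ℝ) : Set (κ → ℝ) :=
  {z | ∃ x ∈ K, ∃ r : ℝ, 0 ≤ r ∧ r ≤ a ∧ z = x + r • u}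

lemma swept_eq (K : Set (κ → ℝ)) (u : κ → ℝ) : swept K u = sw K u 1 := rfl

lemma isCompact_sw {K : Set (κ → ℝ)} (hK : IsCompact K) (u : κ → ℝ) (a : ℝ) :
    IsCompact (sw K u a) := by
  have hc : Continuous (fun q : (κ → ℝ) × ℝ => q.1 + q.2 • u) := by fun_prop
  have e : sw K u a = (fun q : (κ → ℝ) × ℝ => q.1 + q.2 • u) '' (K ×ˢ Icc (0:ℝ) a) := by
    ext z
    constructor
    · rintro ⟨x, hx, r, h0, h1, rfl⟩
      exact ⟨(x, r), ⟨hx, h0, h1⟩, rfl⟩
    · rintro ⟨⟨x, r⟩, ⟨hx, h0, h1⟩, rfl⟩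
      exact ⟨x, hx, r, h0, h1, rfl⟩
  rw [e]
  exact (hK.prod isCompact_Icc).image hc

lemma subset_sw (K : Set (κ → ℝ)) (u : κ → ℝ) {a : ℝ} (ha : 0 ≤ a) : K ⊆ sw K u a :=
  fun x hx => ⟨x, hx, 0, le_rfl, ha, by simp⟩

lemma sw_zero (K : Set (κ → ℝ)) (u : κ → ℝ) : sw K u 0 = K := by
  ext z
  constructor
  · rintro ⟨x, hx, r, h0, h1, rfl⟩
    have hr : r = 0 := le_antisymm h1 h0
    subst hr
    simpa using hx
  · intro hz
    exact ⟨z, hz, 0, le_rfl, le_rfl, by simp⟩

lemma sw_zero_dir (K : Set (κ → ℝ)) {a : ℝ} (ha : 0 ≤ a) : sw K 0 a = K := by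
  ext z
  constructor
  · rintro ⟨x, hx, r, h0, h1, rfl⟩
    simpa using hx
  · intro hz
    exact ⟨z, hz, 0, le_rfl, ha, by simp⟩

/-- the translate of `S` by `c` -/
def tr (c : κ → ℝ) (S : Set (κ → ℝ)) : Set (κ → ℝ) := (fun z => z + (-c)) ⁻¹' S

lemma volume_tr (c : κ → ℝ) (S : Set (κ → ℝ)) : volume (tr c S) = volume S :=
  measure_preimage_add_right volume (-c) S

lemma isClosed_tr (c : κ → ℝ) {S : Set (κ → ℝ)} (hS : IsClosed S) : IsClosed (tr c S) :=
  hS.preimage (by fun_prop)

lemma sw_add {K : Set (κ → ℝ)} (hK : Convex ℝ K) (u : κ → ℝ) {a b : ℝ} (ha : 0 ≤ a)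
    (hb : 0 ≤ b) :
    sw K u (a + b) = sw K u a ∪ tr (a • u) (sw K u b) ∧
      sw K u a ∩ tr (a • u) (sw K u b) = tr (a • u) K := by
  constructor
  · ext z
    constructor
    · rintro ⟨x, hx, r, h0, h1, rfl⟩
      by_cases hra : r ≤ a
      · exact Or.inl ⟨x, hx, r, h0, hra, rfl⟩
      · refine Or.inr ⟨x, hx, r - a, by linarith, by linarith, ?_⟩
        module
    · rintro (⟨x, hx, r, h0, h1, rfl⟩ | ⟨x, hx, r, h0, h1, hz⟩)
      · exact ⟨x, hx, r, h0, by linarith, rfl⟩
      · refine ⟨x, hx, r + a, by linarith, by linarith, ?_⟩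
        have hz' : z + -(a • u) = x + r • u := hz
        have h2 : z = (z + -(a • u)) + a • u := by abel
        rw [h2, hz']
        module
  · ext z
    constructor
    · rintro ⟨⟨x, hx, r, h0, h1, hz1⟩, ⟨x', hx', r', h0', h1', hz2'⟩⟩
      have hz2 : z + -(a • u) = x' + r' • u := hz2'
      show z + -(a • u) ∈ K
      rw [hz2]
      have h3 : x + r • u = x' + r' • u + a • u := by
        rw [← hz1, ← hz2]
        abel
      have h4 : x = x' + r' • u + a • u - r • u := eq_sub_of_add_eq h3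
      have hx_eq : x = x' + (r' + a - r) • u := by
        rw [h4]
        module
      rcases (show 0 ≤ r' + a - r by linarith).eq_or_lt with hd | hd
      · have hr' : r' = 0 := by linarith
        rw [hr']
        simpa using hx'
      · have hl1 : 0 ≤ 1 - r' / (r' + a - r) := by
          rw [sub_nonneg, div_le_one hd]
          linarith
        have hl2 : 0 ≤ r' / (r' + a - r) := div_nonneg h0' hd.le
        have hcomb := hK hx' hx hl1 hl2 (by ring)
        have e : (1 - r' / (r' + a - r)) • x' + (r' / (r' + a - r)) • x = x' + r' • u := by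
          rw [hx_eq]
          have hd' : r' + a - r ≠ 0 := hd.ne'
          have e2 : (r' / (r' + a - r)) • ((r' + a - r) • u) = r' • u := by
            rw [smul_smul]
            congr 1
            field_simp
          rw [smul_add, e2]
          module
        rw [← e]
        exact hcomb
    · intro hz
      have hz' : z + -(a • u) ∈ K := hz
      refine ⟨⟨z + -(a • u), hz', a, ha, le_rfl, by abel⟩, ?_⟩
      exact ⟨z + -(a • u), hz', 0, le_rfl, hb, by simp⟩

lemma vol_sw_add {K : Set (κ → ℝ)} (hK : Convex ℝ K) (hKc : IsCompact K) (u : κ → ℝ)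
    {a b : ℝ} (ha : 0 ≤ a) (hb : 0 ≤ b) :
    vol (sw K u (a + b)) + vol K = vol (sw K u a) + vol (sw K u b) := by
  obtain ⟨h1, h2⟩ := sw_add hK u ha hb
  have hm : MeasurableSet (tr (a • u) (sw K u b)) :=
    (isClosed_tr _ (isCompact_sw hKc u b).isClosed).measurableSet
  have h := measure_union_add_inter (μ := volume) (sw K u a) hm
  rw [← h1, h2, volume_tr, volume_tr] at h
  have f1 : volume (sw K u (a + b)) ≠ ⊤ := (isCompact_sw hKc u _).measure_lt_top.ne
  have f2 : volume K ≠ ⊤ := hKc.measure_lt_top.ne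
  have f3 : volume (sw K u a) ≠ ⊤ := (isCompact_sw hKc u _).measure_lt_top.ne
  have f4 : volume (sw K u b) ≠ ⊤ := (isCompact_sw hKc u _).measure_lt_top.ne
  unfold vol
  rw [← ENNReal.toReal_add f1 f2, ← ENNReal.toReal_add f3 f4, h]

lemma vol_sw_nat {K : Set (κ → ℝ)} (hK : Convex ℝ K) (hKc : IsCompact K) (u : κ → ℝ)
    {a : ℝ} (ha : 0 ≤ a) (n : ℕ) :
    vol (sw K u (n * a)) - vol K = n * (vol (sw K u a) - vol K) := by
  induction n with
  | zero => simp [sw_zero]
  | succ n ih =>
    have h := vol_sw_add hK hKc u (mul_nonneg (Nat.cast_nonneg n) ha) ha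
    have e : ((n + 1 : ℕ) : ℝ) * a = n * a + a := by push_cast; ring
    rw [e]
    push_cast
    linarith

lemma vol_sw_mono {K : Set (κ → ℝ)} (hKc : IsCompact K) (u : κ → ℝ) {a : ℝ} (ha : 0 ≤ a) :
    vol K ≤ vol (sw K u a) :=
  ENNReal.toReal_mono (isCompact_sw hKc u a).measure_lt_top.ne (measure_mono (subset_sw K u ha))

lemma shadow_nonneg {K : Set (κ → ℝ)} (hKc : IsCompact K) (u : κ → ℝ) : 0 ≤ shadow K u := by
  unfold shadow
  rw [swept_eq]
  linarith [vol_sw_mono hKc u (zero_le_one' ℝ)]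

lemma shadow_zero (K : Set (κ → ℝ)) : shadow K 0 = 0 := by
  unfold shadow
  rw [swept_eq, sw_zero_dir K zero_le_one, sub_self]

/-- the sweep over `[0, 1/N]` carries the fraction `1/N` of the shadow -/
lemma shadow_div {K : Set (κ → ℝ)} (hK : Convex ℝ K) (hKc : IsCompact K) (u : κ → ℝ)
    {N : ℕ} (hN : 0 < N) :
    vol (sw K u (1 / N)) - vol K = shadow K u / N := by
  have hN' : (0:ℝ) < N := by exact_mod_cast hN
  have h := vol_sw_nat hK hKc u (show (0:ℝ) ≤ 1 / N by positivity) N
  have e : (N:ℝ) * (1 / N) = 1 := by field_simp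
  rw [e] at h
  unfold shadow
  rw [swept_eq, h]
  field_simp

lemma vol_inter_tr {K : Set (κ → ℝ)} (hKc : IsCompact K) (u : κ → ℝ) {a : ℝ} (ha : 0 ≤ a) :
    2 * vol K - vol (sw K u a) ≤ vol (K ∩ tr (a • u) K) ∧ vol (K ∩ tr (a • u) K) ≤ vol K := by
  have hm : MeasurableSet (tr (a • u) K) := (isClosed_tr _ hKc.isClosed).measurableSet
  have h := measure_union_add_inter (μ := volume) K hm
  rw [volume_tr] at h
  have hsub : K ∪ tr (a • u) K ⊆ sw K u a := by
    rintro z (hz | hz)
    · exact subset_sw K u ha hz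
    · have hz' : z + -(a • u) ∈ K := hz
      exact ⟨z + -(a • u), hz', a, ha, le_rfl, by abel⟩
  have fsw : volume (sw K u a) ≠ ⊤ := (isCompact_sw hKc u a).measure_lt_top.ne
  have fK : volume K ≠ ⊤ := hKc.measure_lt_top.ne
  have fU : volume (K ∪ tr (a • u) K) ≠ ⊤ := ne_top_of_le_ne_top fsw (measure_mono hsub)
  have fI : volume (K ∩ tr (a • u) K) ≠ ⊤ :=
    ne_top_of_le_ne_top fK (measure_mono Set.inter_subset_left)
  have hreal : (volume (K ∪ tr (a • u) K)).toReal + (volume (K ∩ tr (a • u) K)).toReal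
      = (volume K).toReal + (volume K).toReal := by
    rw [← ENNReal.toReal_add fU fI, ← ENNReal.toReal_add fK fK, h]
  have hle : (volume (K ∪ tr (a • u) K)).toReal ≤ (volume (sw K u a)).toReal :=
    ENNReal.toReal_mono fsw (measure_mono hsub)
  have hle2 : (volume (K ∩ tr (a • u) K)).toReal ≤ (volume K).toReal :=
    ENNReal.toReal_mono fK (measure_mono Set.inter_subset_left)
  unfold vol
  constructor
  · linarith
  · exact hle2

end basics

section product

variable {ι κ : Type*} [Fintype ι] [Fintype κ]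

set_option linter.unusedSectionVars false

lemma vol_prodSet (A : Set (ι → ℝ)) (B : Set (κ → ℝ)) : vol (prodSet A B) = vol A * vol B :=
  Vale.Agent.Lib.P254.prod_vol A B

lemma isClosed_prodSet {A : Set (ι → ℝ)} {B : Set (κ → ℝ)} (hA : IsClosed A) (hB : IsClosed B) :
    IsClosed (prodSet A B) := by
  have h1 : Continuous (fun z : ι ⊕ κ → ℝ => (fun i => z (Sum.inl i) : ι → ℝ)) :=
    continuous_pi fun i => continuous_apply _
  have h2 : Continuous (fun z : ι ⊕ κ → ℝ => (fun j => z (Sum.inr j) : κ → ℝ)) :=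
    continuous_pi fun j => continuous_apply _
  exact (hA.preimage h1).inter (hB.preimage h2)

lemma isCompact_prodSet {A : Set (ι → ℝ)} {B : Set (κ → ℝ)} (hA : IsCompact A)
    (hB : IsCompact B) : IsCompact (prodSet A B) :=
  Metric.isCompact_of_isClosed_isBounded (isClosed_prodSet hA.isClosed hB.isClosed)
    (Vale.Agent.Lib.P254.isBounded_prodSet hA.isBounded hB.isBounded)

lemma convex_prodSet {A : Set (ι → ℝ)} {B : Set (κ → ℝ)} (hA : Convex ℝ A) (hB : Convex ℝ B) :
    Convex ℝ (prodSet A B) := by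
  intro z hz z' hz' a b ha hb hab
  exact ⟨hA hz.1 hz'.1 ha hb hab, hB hz.2 hz'.2 ha hb hab⟩

lemma prodSet_mono {A A' : Set (ι → ℝ)} {B B' : Set (κ → ℝ)} (hA : A ⊆ A') (hB : B ⊆ B') :
    prodSet A B ⊆ prodSet A' B' := fun _ hz => ⟨hA hz.1, hB hz.2⟩

lemma sw_prod_subset (A : Set (ι → ℝ)) (B : Set (κ → ℝ)) (u : ι → ℝ) (v : κ → ℝ) (a : ℝ) :
    sw (prodSet A B) (Sum.elim u v) a ⊆ prodSet (sw A u a) (sw B v a) := by
  rintro z ⟨q, hq, r, h0, h1, rfl⟩
  refine ⟨⟨fun i => q (Sum.inl i), hq.1, r, h0, h1, ?_⟩,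
    ⟨fun j => q (Sum.inr j), hq.2, r, h0, h1, ?_⟩⟩
  · funext i
    simp
  · funext j
    simp

/-- a convex set containing `y` and `y - a v` contains `y - r v` for `0 ≤ r ≤ a` -/
lemma mem_of_seg {B : Set (κ → ℝ)} (hB : Convex ℝ B) {y v : κ → ℝ} {a r : ℝ} (ha : 0 ≤ a)
    (h0 : 0 ≤ r) (h1 : r ≤ a) (hy : y ∈ B) (hy' : y + -(a • v) ∈ B) : y + -(r • v) ∈ B := by
  rcases ha.eq_or_lt with h | h
  · have hr : r = 0 := by linarith
    rw [hr]
    simpa using hy
  · have hcomb := hB hy hy' (show 0 ≤ 1 - r / a by rw [sub_nonneg, div_le_one h]; exact h1)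
      (div_nonneg h0 h.le) (by ring)
    have e : (1 - r / a) • y + (r / a) • (y + -(a • v)) = y + -(r • v) := by
      have e2 : (r / a) • (a • v) = r • v := by
        rw [smul_smul]
        congr 1
        field_simp
      rw [smul_add, smul_neg, e2]
      module
    rw [← e]
    exact hcomb

lemma prod_sub_sw_left {A : Set (ι → ℝ)} {B : Set (κ → ℝ)} (hB : Convex ℝ B) (u : ι → ℝ)
    (v : κ → ℝ) {a : ℝ} (ha : 0 ≤ a) :
    prodSet (sw A u a) (B ∩ tr (a • v) B) ⊆ sw (prodSet A B) (Sum.elim u v) a := by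
  rintro z ⟨⟨x, hx, r, h0, h1, hzl⟩, hzB, hzB'⟩
  have hzB'' : (fun j => z (Sum.inr j)) + -(a • v) ∈ B := hzB'
  have hyr := mem_of_seg hB ha h0 h1 hzB hzB''
  refine ⟨Sum.elim x ((fun j => z (Sum.inr j)) + -(r • v)), ⟨?_, ?_⟩, r, h0, h1, ?_⟩
  · show (fun i => Sum.elim x ((fun j => z (Sum.inr j)) + -(r • v)) (Sum.inl i)) ∈ A
    exact hx
  · show (fun j => Sum.elim x ((fun j => z (Sum.inr j)) + -(r • v)) (Sum.inr j)) ∈ B
    exact hyr
  · funext s
    rcases s with i | j
    · have := congrFun hzl i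
      simpa using this
    · simp

lemma prod_sub_sw_right {A : Set (ι → ℝ)} {B : Set (κ → ℝ)} (hA : Convex ℝ A) (u : ι → ℝ)
    (v : κ → ℝ) {a : ℝ} (ha : 0 ≤ a) :
    prodSet (A ∩ tr (a • u) A) (sw B v a) ⊆ sw (prodSet A B) (Sum.elim u v) a := by
  rintro z ⟨⟨hzA, hzA'⟩, ⟨y, hy, r, h0, h1, hzr⟩⟩
  have hzA'' : (fun i => z (Sum.inl i)) + -(a • u) ∈ A := hzA'
  have hxr := mem_of_seg hA ha h0 h1 hzA hzA''
  refine ⟨Sum.elim ((fun i => z (Sum.inl i)) + -(r • u)) y, ⟨?_, ?_⟩, r, h0, h1, ?_⟩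
  · show (fun i => Sum.elim ((fun i => z (Sum.inl i)) + -(r • u)) y (Sum.inl i)) ∈ A
    exact hxr
  · show (fun j => Sum.elim ((fun i => z (Sum.inl i)) + -(r • u)) y (Sum.inr j)) ∈ B
    exact hy
  · funext s
    rcases s with i | j
    · simp
    · have := congrFun hzr j
      simpa using this

/-- the product formula for the shadow function -/
theorem shadow_prod {A : Set (ι → ℝ)} {B : Set (κ → ℝ)} (hA : Convex ℝ A) (hAc : IsCompact A)
    (hB : Convex ℝ B) (hBc : IsCompact B) (u : ι → ℝ) (v : κ → ℝ) :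
    shadow (prodSet A B) (Sum.elim u v) = vol B * shadow A u + vol A * shadow B v := by
  have hwA : 0 ≤ shadow A u := shadow_nonneg hAc u
  have hwB : 0 ≤ shadow B v := shadow_nonneg hBc v
  have hα : 0 ≤ vol A := ENNReal.toReal_nonneg
  have hβ : 0 ≤ vol B := ENNReal.toReal_nonneg
  have hPc : IsCompact (prodSet A B) := isCompact_prodSet hAc hBc
  have hPv : Convex ℝ (prodSet A B) := convex_prodSet hA hB
  have key : ∀ N : ℕ, 0 < N →
      shadow (prodSet A B) (Sum.elim u v)
        ≤ vol B * shadow A u + vol A * shadow B v + shadow A u * shadow B v / N ∧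
      vol B * shadow A u + vol A * shadow B v - 3 * (shadow A u * shadow B v) / N
        ≤ shadow (prodSet A B) (Sum.elim u v) := by
    intro N hN
    have hN' : (0:ℝ) < N := by exact_mod_cast hN
    have ha : (0:ℝ) ≤ 1 / N := by positivity
    have hP := shadow_div hA hAc u hN
    have hQ := shadow_div hB hBc v hN
    have hW := shadow_div hPv hPc (Sum.elim u v) hN
    rw [vol_prodSet] at hW
    set P := shadow A u / N with hPdef
    set Q := shadow B v / N with hQdef
    have hP0 : 0 ≤ P := div_nonneg hwA hN'.le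
    have hQ0 : 0 ≤ Q := div_nonneg hwB hN'.le
    have hNP : N * P = shadow A u := by rw [hPdef]; field_simp
    have hNQ : N * Q = shadow B v := by rw [hQdef]; field_simp
    have hNW : shadow (prodSet A B) (Sum.elim u v)
        = N * (vol (sw (prodSet A B) (Sum.elim u v) (1 / N)) - vol A * vol B) := by
      rw [hW]; field_simp
    -- upper bound
    have hup : vol (sw (prodSet A B) (Sum.elim u v) (1 / N))
        ≤ vol (sw A u (1 / N)) * vol (sw B v (1 / N)) := by
      rw [← vol_prodSet]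
      exact ENNReal.toReal_mono
        (isCompact_prodSet (isCompact_sw hAc u _) (isCompact_sw hBc v _)).measure_lt_top.ne
        (measure_mono (sw_prod_subset A B u v _))
    -- lower bound
    obtain ⟨hA'1, hA'2⟩ := vol_inter_tr hAc u ha
    obtain ⟨hB'1, hB'2⟩ := vol_inter_tr hBc v ha
    set A' := A ∩ tr ((1 / (N:ℝ)) • u) A with hA'def
    set B' := B ∩ tr ((1 / (N:ℝ)) • v) B with hB'def
    have hA'c : IsCompact A' := hAc.inter_right (isClosed_tr _ hAc.isClosed)
    have hB'c : IsCompact B' := hBc.inter_right (isClosed_tr _ hBc.isClosed)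
    have hS2m : MeasurableSet (prodSet A' (sw B v (1 / N))) :=
      (isClosed_prodSet hA'c.isClosed (isCompact_sw hBc v _).isClosed).measurableSet
    have hinter : prodSet (sw A u (1 / N)) B' ∩ prodSet A' (sw B v (1 / N)) = prodSet A' B' := by
      ext z
      constructor
      · rintro ⟨⟨-, h2⟩, ⟨h3, -⟩⟩
        exact ⟨h3, h2⟩
      · rintro ⟨h1, h2⟩
        exact ⟨⟨subset_sw A u ha h1.1, h2⟩, ⟨h1, subset_sw B v ha h2.1⟩⟩
    have hunion := measure_union_add_inter (μ := volume) (prodSet (sw A u (1 / N)) B') hS2m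
    rw [hinter] at hunion
    have hsubU : prodSet (sw A u (1 / N)) B' ∪ prodSet A' (sw B v (1 / N))
        ⊆ sw (prodSet A B) (Sum.elim u v) (1 / N) :=
      Set.union_subset (prod_sub_sw_left hB u v ha) (prod_sub_sw_right hA u v ha)
    have fsw : volume (sw (prodSet A B) (Sum.elim u v) (1 / N)) ≠ ⊤ :=
      (isCompact_sw hPc _ _).measure_lt_top.ne
    have fU : volume (prodSet (sw A u (1 / N)) B' ∪ prodSet A' (sw B v (1 / N))) ≠ ⊤ :=
      ne_top_of_le_ne_top fsw (measure_mono hsubU)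
    have fI : volume (prodSet A' B') ≠ ⊤ := (isCompact_prodSet hA'c hB'c).measure_lt_top.ne
    have f1 : volume (prodSet (sw A u (1 / N)) B') ≠ ⊤ :=
      (isCompact_prodSet (isCompact_sw hAc u _) hB'c).measure_lt_top.ne
    have f2 : volume (prodSet A' (sw B v (1 / N))) ≠ ⊤ :=
      (isCompact_prodSet hA'c (isCompact_sw hBc v _)).measure_lt_top.ne
    have hreal : (volume (prodSet (sw A u (1 / N)) B' ∪ prodSet A' (sw B v (1 / N)))).toReal
        + vol A' * vol B' = vol (sw A u (1 / N)) * vol B' + vol A' * vol (sw B v (1 / N)) := by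
      rw [← vol_prodSet, ← vol_prodSet, ← vol_prodSet]
      unfold vol
      rw [← ENNReal.toReal_add fU fI, ← ENNReal.toReal_add f1 f2, hunion]
    have hlow : (volume (prodSet (sw A u (1 / N)) B' ∪ prodSet A' (sw B v (1 / N)))).toReal
        ≤ vol (sw (prodSet A B) (Sum.elim u v) (1 / N)) :=
      ENNReal.toReal_mono fsw (measure_mono hsubU)
    have hswA : vol (sw A u (1 / N)) = vol A + P := by linarith
    have hswB : vol (sw B v (1 / N)) = vol B + Q := by linarith
    rw [hswA] at hup hreal hA'1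
    rw [hswB] at hup hreal hB'1
    have hx0 : 0 ≤ vol A - vol A' := by linarith
    have hy0 : 0 ≤ vol B - vol B' := by linarith
    have hx1 : 0 ≤ P - (vol A - vol A') := by linarith
    have hy1 : 0 ≤ Q - (vol B - vol B') := by linarith
    have hlow2 : vol A * vol B + P * vol B + Q * vol A - 3 * (P * Q)
        ≤ vol (sw (prodSet A B) (Sum.elim u v) (1 / N)) := by
      nlinarith [mul_nonneg hP0 hy1, mul_nonneg hQ0 hx1, mul_nonneg hy0 hx1,
        mul_nonneg hx0 hy0]
    constructor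
    · rw [hNW]
      have h3 : (N:ℝ) * (vol (sw (prodSet A B) (Sum.elim u v) (1 / N)) - vol A * vol B)
          ≤ N * (vol A * Q + vol B * P + P * Q) := by
        apply mul_le_mul_of_nonneg_left _ hN'.le
        nlinarith
      have h4 : (N:ℝ) * (vol A * Q + vol B * P + P * Q)
          = vol B * shadow A u + vol A * shadow B v + shadow A u * shadow B v / N := by
        rw [← hNP, ← hNQ]
        field_simp
        ring
      linarith
    · rw [hNW]
      have h3 : (N:ℝ) * (P * vol B + Q * vol A - 3 * (P * Q))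
          ≤ N * (vol (sw (prodSet A B) (Sum.elim u v) (1 / N)) - vol A * vol B) := by
        apply mul_le_mul_of_nonneg_left _ hN'.le
        linarith
      have h4 : (N:ℝ) * (P * vol B + Q * vol A - 3 * (P * Q))
          = vol B * shadow A u + vol A * shadow B v - 3 * (shadow A u * shadow B v) / N := by
        rw [← hNP, ← hNQ]
        field_simp
      linarith
  have hC : 0 ≤ shadow A u * shadow B v := mul_nonneg hwA hwB
  apply le_antisymm
  · apply le_of_forall_pos_le_add
    intro ε hε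
    obtain ⟨N, hN⟩ := exists_nat_gt (shadow A u * shadow B v / ε)
    have hN0 : (0:ℝ) < N := lt_of_le_of_lt (div_nonneg hC hε.le) hN
    have hNpos : 0 < N := by exact_mod_cast hN0
    have h1 := (key N hNpos).1
    have h2 : shadow A u * shadow B v / N ≤ ε := by
      rw [div_le_iff₀ hN0]
      rw [div_lt_iff₀ hε] at hN
      linarith
    linarith
  · apply le_of_forall_pos_le_add
    intro ε hε
    obtain ⟨N, hN⟩ := exists_nat_gt (3 * (shadow A u * shadow B v) / ε)
    have hN0 : (0:ℝ) < N := lt_of_le_of_lt (div_nonneg (by positivity) hε.le) hN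
    have hNpos : 0 < N := by exact_mod_cast hN0
    have h1 := (key N hNpos).2
    have h2 : 3 * (shadow A u * shadow B v) / N ≤ ε := by
      rw [div_le_iff₀ hN0]
      rw [div_lt_iff₀ hε] at hN
      linarith
    linarith

end product

end

end Vale.Agent.Lib.P237
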