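import Vale.Agent.Lib.P237.Petty
import Vale.Agent.Lib.P237.ConstDefs

/-!
# P237: the constants of the projection-volume inequality are submultiplicative

`W n` is the integral of the power `n` of the sine over `[0, π]`; the volumes of the unit balls
satisfy `ballVol (n + 1) = ballVol n * W (n + 1)`, and `W` is logarithmically convex by the
Cauchy-Schwarz inequality.  Hence the ratios `pettyConst (n + 1) / pettyConst n` decrease.
-/

namespace Vale.Agent.Lib.P237

open MeasureTheory Real

noncomputable section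

/-- the Wallis integrals -/
def W (n : ℕ) : ℝ := ∫ x in (0:ℝ)..π, sin x ^ n

lemma W_pos (n : ℕ) : 0 < W n := integral_sin_pow_pos n

lemma W_zero : W 0 = π := by simp [W]

lemma W_one : W 1 = 2 := by
  unfold W
  simp only [pow_one]
  rw [integral_sin]
  simp
  norm_num

lemma W_two : W 2 = π / 2 := by
  unfold W
  rw [integral_sin_sq]
  simp

lemma W_succ_succ (n : ℕ) : W (n + 2) = ((n:ℝ) + 1) / ((n:ℝ) + 2) * W n := by
  unfold W
  rw [integral_sin_pow]
  simp

lemma W_three : W 3 = 4 / 3 := by
  have h := W_succ_succ 1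
  rw [W_one] at h
  have e : (1 + 2 : ℕ) = 3 := rfl
  rw [e] at h
  rw [h]
  norm_num

lemma W_quad (n : ℕ) (c : ℝ) : 0 ≤ c ^ 2 * W n - 2 * c * W (n + 1) + W (n + 2) := by
  have h : ∫ x in (0:ℝ)..π, sin x ^ n * (c - sin x) ^ 2
      = c ^ 2 * W n - 2 * c * W (n + 1) + W (n + 2) := by
    have e : ∀ x : ℝ, sin x ^ n * (c - sin x) ^ 2
        = c ^ 2 * sin x ^ n - 2 * c * sin x ^ (n + 1) + sin x ^ (n + 2) := by
      intro x; ring
    simp_rw [e]
    have i0 : IntervalIntegrable (fun x : ℝ => c ^ 2 * sin x ^ n) volume 0 π :=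
      Continuous.intervalIntegrable (by fun_prop) _ _
    have i1 : IntervalIntegrable (fun x : ℝ => 2 * c * sin x ^ (n + 1)) volume 0 π :=
      Continuous.intervalIntegrable (by fun_prop) _ _
    have i2 : IntervalIntegrable (fun x : ℝ => sin x ^ (n + 2)) volume 0 π :=
      Continuous.intervalIntegrable (by fun_prop) _ _
    rw [intervalIntegral.integral_add (i0.sub i1) i2, intervalIntegral.integral_sub i0 i1,
      intervalIntegral.integral_const_mul, intervalIntegral.integral_const_mul]
    rfl
  rw [← h]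
  apply intervalIntegral.integral_nonneg pi_pos.le
  intro x hx
  exact mul_nonneg (pow_nonneg (sin_nonneg_of_nonneg_of_le_pi hx.1 hx.2) n) (sq_nonneg _)

/-- logarithmic convexity of the Wallis integrals -/
lemma W_logconvex (n : ℕ) : W (n + 1) ^ 2 ≤ W n * W (n + 2) := by
  have h := W_quad n (W (n + 1) / W n)
  have hp := W_pos n
  have e1 : (W (n + 1) / W n) ^ 2 * W n = W (n + 1) ^ 2 / W n := by
    field_simp
  have e2 : 2 * (W (n + 1) / W n) * W (n + 1) = 2 * (W (n + 1) ^ 2 / W n) := by
    field_simp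
  rw [e1, e2] at h
  have h3 : W (n + 1) ^ 2 / W n ≤ W (n + 2) := by linarith
  rw [div_le_iff₀ hp] at h3
  linarith

lemma W_prod (n : ℕ) : ((n:ℝ) + 2) * (W (n + 1) * W (n + 2)) = 2 * π := by
  induction n with
  | zero =>
    rw [W_one, W_two]
    push_cast
    ring
  | succ n ih =>
    have h := W_succ_succ (n + 1)
    have e : n + 1 + 2 = n + 3 := rfl
    rw [e] at h
    have e' : n + 1 + 1 = n + 2 := rfl
    rw [e', h]
    push_cast
    have hne : ((n:ℝ) + 1 + 2) ≠ 0 := by positivity
    field_simp
    linear_combination ih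

lemma ballVol_pos (n : ℕ) : 0 < ballVol n := by
  unfold ballVol
  have h1 : 0 < Real.Gamma ((n:ℝ) / 2 + 1) := Real.Gamma_pos_of_pos (by positivity)
  have h2 : 0 < Real.sqrt π := Real.sqrt_pos.2 pi_pos
  positivity

lemma ballVol_zero : ballVol 0 = 1 := by
  unfold ballVol
  simp

lemma ballVol_one : ballVol 1 = 2 := by
  unfold ballVol
  have e : ((1:ℕ):ℝ) / 2 + 1 = 1 / 2 + 1 := by norm_num
  rw [e, Real.Gamma_add_one (by norm_num), Real.Gamma_one_half_eq]
  have h2 : 0 < Real.sqrt π := Real.sqrt_pos.2 pi_pos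
  field_simp

lemma ballVol_succ_succ (n : ℕ) : ballVol (n + 2) = ballVol n * (2 * π / ((n:ℝ) + 2)) := by
  unfold ballVol
  have e : ((n + 2 : ℕ):ℝ) / 2 + 1 = ((n:ℝ) / 2 + 1) + 1 := by push_cast; ring
  have hne : ((n:ℝ) / 2 + 1) ≠ 0 := by positivity
  rw [e, Real.Gamma_add_one hne, pow_add, Real.sq_sqrt pi_pos.le]
  have h1 : 0 < Real.Gamma ((n:ℝ) / 2 + 1) := Real.Gamma_pos_of_pos (by positivity)
  have hn : ((n:ℝ) + 2) ≠ 0 := by positivity
  field_simp

/-- the volume of the unit ball by slices -/
lemma ballVol_succ (n : ℕ) : ballVol (n + 1) = ballVol n * W (n + 1) := by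
  induction n using Nat.twoStepInduction with
  | zero => rw [ballVol_zero, W_one, one_mul]; exact ballVol_one
  | one =>
    have h := ballVol_succ_succ 0
    rw [ballVol_zero] at h
    have e : (0 + 2 : ℕ) = 1 + 1 := rfl
    rw [e] at h
    rw [h, ballVol_one, W_two]
    push_cast
    ring
  | more n ih1 ih2 =>
    have h := ballVol_succ_succ (n + 1)
    have e : n + 1 + 2 = n + 2 + 1 := rfl
    rw [e] at h
    rw [h, ih1]
    have h2 := ballVol_succ_succ n
    rw [h2]
    have h3 := W_prod (n + 1)
    have e3 : n + 1 + 1 = n + 2 := rfl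
    have e4 : n + 1 + 2 = n + 2 + 1 := rfl
    rw [e3, e4] at h3
    have h4 := W_succ_succ (n + 1)
    rw [e4] at h4
    rw [h4]
    push_cast
    have hn : ((n:ℝ) + 2) ≠ 0 := by positivity
    have hn3 : ((n:ℝ) + 1 + 2) ≠ 0 := by positivity
    field_simp
    ring

lemma pettyConst_pos (n : ℕ) : 0 < pettyConst n := by
  unfold pettyConst
  have h1 := ballVol_pos (n - 1)
  have h2 := ballVol_pos n
  positivity

lemma pettyConst_zero : pettyConst 0 = 1 := by
  unfold pettyConst
  simp [ballVol_zero]

lemma pettyConst_succ (m : ℕ) :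
    pettyConst (m + 1) = ballVol (m + 1) ^ 2 / W (m + 1) ^ (m + 1) := by
  unfold pettyConst
  have e : m + 1 - 1 = m := by omega
  rw [e]
  have h1 := ballVol_pos m
  have h2 := W_pos (m + 1)
  rw [ballVol_succ m, mul_pow (ballVol m) (W (m + 1)) (m + 1)]
  field_simp

/-- the ratio of consecutive constants -/
def ratio (m : ℕ) : ℝ := pettyConst (m + 1) / pettyConst m

lemma ratio_pos (m : ℕ) : 0 < ratio m := div_pos (pettyConst_pos _) (pettyConst_pos _)

lemma pettyConst_step (m : ℕ) : pettyConst (m + 1) = pettyConst m * ratio m := by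
  unfold ratio
  have h := pettyConst_pos m
  field_simp

lemma pettyConst_one : pettyConst 1 = 2 := by
  rw [pettyConst_succ 0, ballVol_one, W_one]
  norm_num

lemma ratio_zero : ratio 0 = 2 := by
  unfold ratio
  rw [pettyConst_one, pettyConst_zero]
  norm_num

lemma ratio_succ (j : ℕ) : ratio (j + 1) = W (j + 1) ^ (j + 1) / W (j + 2) ^ j := by
  unfold ratio
  rw [pettyConst_succ (j + 1), pettyConst_succ j, ballVol_succ (j + 1)]
  have h1 := ballVol_pos (j + 1)
  have h2 := W_pos (j + 1)
  have h3 := W_pos (j + 2)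
  have e : j + 1 + 1 = j + 2 := rfl
  rw [e]
  rw [pow_succ (W (j + 2)) (j + 1), pow_succ (W (j + 2)) j]
  field_simp

lemma ratio_one : ratio 1 = 2 := by
  rw [ratio_succ 0, W_one]
  norm_num

lemma ratio_two : ratio 2 = 3 * π ^ 2 / 16 := by
  rw [ratio_succ 1, W_two, W_three]
  norm_num
  ring

lemma ratio_two_lt : ratio 2 < 2 := by
  rw [ratio_two]
  nlinarith [Real.pi_lt_d2, Real.pi_pos]

lemma ratio_anti_succ (m : ℕ) : ratio (m + 1) ≤ ratio m := by
  rcases m with _ | j
  · rw [ratio_one, ratio_zero]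
  · rw [ratio_succ (j + 1), ratio_succ j]
    have h1 := W_pos (j + 1)
    have h2 := W_pos (j + 2)
    have h3 := W_pos (j + 3)
    have e : j + 1 + 1 = j + 2 := rfl
    have e' : j + 1 + 2 = j + 3 := rfl
    rw [e, e']
    rw [div_le_div_iff₀ (pow_pos h3 _) (pow_pos h2 _)]
    have hlc := W_logconvex (j + 1)
    rw [e, e'] at hlc
    calc W (j + 2) ^ (j + 2) * W (j + 2) ^ j = (W (j + 2) ^ 2) ^ (j + 1) := by ring
      _ ≤ (W (j + 1) * W (j + 3)) ^ (j + 1) :=
          pow_le_pow_left₀ (by positivity) hlc _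
      _ = W (j + 1) ^ (j + 1) * W (j + 3) ^ (j + 1) := by ring

lemma ratio_anti (k l : ℕ) : ratio (k + l) ≤ ratio l := by
  induction k with
  | zero => simp
  | succ k ih =>
    have e : k + 1 + l = (k + l) + 1 := by omega
    rw [e]
    exact (ratio_anti_succ _).trans ih

/-- submultiplicativity of the constants -/
theorem pettyConst_add_le (k l : ℕ) : pettyConst (k + l) ≤ pettyConst k * pettyConst l := by
  induction l with
  | zero => rw [pettyConst_zero]; simp
  | succ l ih =>
    have e : k + (l + 1) = (k + l) + 1 := by omega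
    rw [e, pettyConst_step (k + l), pettyConst_step l]
    calc pettyConst (k + l) * ratio (k + l) ≤ (pettyConst k * pettyConst l) * ratio l :=
          mul_le_mul ih (ratio_anti k l) (ratio_pos _).le
            (mul_pos (pettyConst_pos _) (pettyConst_pos _)).le
      _ = pettyConst k * (pettyConst l * ratio l) := by ring

lemma pettyConst_two : pettyConst 2 = 4 := by
  rw [pettyConst_step 1, pettyConst_one, ratio_one]
  norm_num

lemma pettyConst_three : pettyConst 3 = 3 * π ^ 2 / 4 := by
  rw [pettyConst_step 2, pettyConst_two, ratio_two]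
  ring

lemma pettyConst_add_two_lt (k : ℕ) (hk : 1 ≤ k) :
    pettyConst (k + 2) < pettyConst k * pettyConst 2 := by
  have e : k + 2 = (k + 1) + 1 := by omega
  rw [e, pettyConst_step (k + 1), pettyConst_step k, pettyConst_two]
  have h1 : ratio k ≤ 2 := by
    obtain ⟨j, rfl⟩ : ∃ j, k = j + 1 := ⟨k - 1, by omega⟩
    have := ratio_anti j 1
    rw [ratio_one] at this
    exact this
  have h2 : ratio (k + 1) < 2 := by
    obtain ⟨j, rfl⟩ : ∃ j, k = j + 1 := ⟨k - 1, by omega⟩
    have h := ratio_anti j 2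
    have e2 : j + 1 + 1 = j + 2 := rfl
    rw [e2]
    exact h.trans_lt ratio_two_lt
  have hp := pettyConst_pos k
  have hr := ratio_pos k
  have hr1 := ratio_pos (k + 1)
  nlinarith [mul_pos hp hr, mul_pos hr hr1]

/-- strict submultiplicativity as soon as the total dimension is at least three -/
theorem pettyConst_add_lt {k l : ℕ} (hk : 1 ≤ k) (hl : 1 ≤ l) (h3 : 3 ≤ k + l) :
    pettyConst (k + l) < pettyConst k * pettyConst l := by
  have key : ∀ k l : ℕ, 1 ≤ k → 2 ≤ l → pettyConst (k + l) < pettyConst k * pettyConst l := by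
    intro k l hk hl
    induction l, hl using Nat.le_induction with
    | base => exact pettyConst_add_two_lt k hk
    | succ l hl ih =>
      have e : k + (l + 1) = (k + l) + 1 := by omega
      rw [e, pettyConst_step (k + l), pettyConst_step l]
      calc pettyConst (k + l) * ratio (k + l) < (pettyConst k * pettyConst l) * ratio (k + l) :=
            mul_lt_mul_of_pos_right ih (ratio_pos _)
        _ ≤ (pettyConst k * pettyConst l) * ratio l :=
            mul_le_mul_of_nonneg_left (ratio_anti k l)
              (mul_pos (pettyConst_pos _) (pettyConst_pos _)).le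
        _ = pettyConst k * (pettyConst l * ratio l) := by ring
  rcases Nat.lt_or_ge l 2 with hl2 | hl2
  · have hk2 : 2 ≤ k := by omega
    have h := key l k hl hk2
    rw [add_comm k l, mul_comm (pettyConst k)]
    exact h
  · exact key k l hk hl2

/-- `ballVol` is the volume of the Euclidean unit ball -/
lemma ballVol_eq (n : ℕ) :
    (volume (Metric.ball (0 : EuclideanSpace ℝ (Fin (n + 1))) 1)).toReal = ballVol (n + 1) := by
  rw [EuclideanSpace.volume_ball]
  have h1 : 0 < Real.Gamma (((n + 1 : ℕ):ℝ) / 2 + 1) := Real.Gamma_pos_of_pos (by positivity)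
  have h2 : 0 < Real.sqrt π := Real.sqrt_pos.2 pi_pos
  simp only [ENNReal.ofReal_one, one_pow, one_mul, Fintype.card_fin]
  rw [ENNReal.toReal_ofReal (by positivity)]
  rfl

section family

variable {ι κ : Type*} [Fintype ι] [Fintype κ]

/-- the conjectured inequality passes to Cartesian products -/
theorem pettyRatio_prod_ge [Nonempty ι] [Nonempty κ] {A : Set (ι → ℝ)} {B : Set (κ → ℝ)}
    (hA : Convex ℝ A) (hAc : IsCompact A) (hB : Convex ℝ B) (hBc : IsCompact B)
    (hα : 0 < vol A) (hβ : 0 < vol B)
    (h1 : pettyConst (Fintype.card ι) ≤ pettyRatio A)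
    (h2 : pettyConst (Fintype.card κ) ≤ pettyRatio B) :
    pettyConst (Fintype.card ι + Fintype.card κ) ≤ pettyRatio (prodSet A B) ∧
    (3 ≤ Fintype.card ι + Fintype.card κ →
      pettyConst (Fintype.card ι + Fintype.card κ) < pettyRatio (prodSet A B)) := by
  rw [pettyRatio_prod hA hAc hB hBc hα hβ]
  have hm : pettyConst (Fintype.card ι) * pettyConst (Fintype.card κ)
      ≤ pettyRatio A * pettyRatio B :=
    mul_le_mul h1 h2 (pettyConst_pos _).le ((pettyConst_pos _).le.trans h1)
  exact ⟨(pettyConst_add_le _ _).trans hm,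
    fun h3 => (pettyConst_add_lt Fintype.card_pos Fintype.card_pos h3).trans_le hm⟩

lemma isCompact_seg (h : ℝ) : IsCompact (seg h) := by
  have hcl : IsClosed (seg h) := by
    have h1 : IsClosed {x : Unit → ℝ | 0 ≤ x ()} :=
      isClosed_le continuous_const (continuous_apply ())
    have h2 : IsClosed {x : Unit → ℝ | x () ≤ h} :=
      isClosed_le (continuous_apply ()) continuous_const
    exact h1.inter h2
  have hb : Bornology.IsBounded (seg h) := by
    refine isBounded_iff_forall_norm_le.2 ⟨max h 0, ?_⟩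
    rintro x ⟨hx0, hx1⟩
    refine (pi_norm_le_iff_of_nonneg (le_max_right _ _)).2 fun t => ?_
    rw [Real.norm_eq_abs, abs_of_nonneg hx0]
    exact hx1.trans (le_max_left _ _)
  exact Metric.isCompact_of_isClosed_isBounded hcl hb

lemma convex_seg (h : ℝ) : Convex ℝ (seg h) := by
  intro x hx y hy a b ha hb hab
  have e : (a • x + b • y) () = a * x () + b * y () := by simp
  constructor
  · show 0 ≤ (a • x + b • y) ()
    rw [e]
    exact add_nonneg (mul_nonneg ha hx.1) (mul_nonneg hb hy.1)
  · show (a • x + b • y) () ≤ h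
    rw [e]
    calc a * x () + b * y () ≤ a * h + b * h :=
          add_le_add (mul_le_mul_of_nonneg_left hx.2 ha) (mul_le_mul_of_nonneg_left hy.2 hb)
      _ = h := by rw [← add_mul, hab, one_mul]

/-- the conjectured inequality on the family `PlanarProd`, strict from dimension three on -/
theorem planarProd_main {ι : Type} [Fintype ι] {K : Set (ι → ℝ)} (h : PlanarProd K) :
    IsCompact K ∧ Convex ℝ K ∧ 0 < vol K ∧ pettyConst (Fintype.card ι) ≤ pettyRatio K ∧
    (3 ≤ Fintype.card ι → pettyConst (Fintype.card ι) < pettyRatio K) := by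
  induction h with
  | seg h hh =>
    refine ⟨isCompact_seg h, convex_seg h, ?_, ?_, ?_⟩
    · rw [vol_seg hh.le]; exact hh
    · rw [pettyRatio_seg hh.le]
      simp [pettyConst_one]
    · intro h3
      simp at h3
  | planar A hc hv hpos =>
    refine ⟨hc, hv, hpos, ?_, ?_⟩
    · have := pettyRatio_planar hv hc hpos
      simpa [pettyConst_two] using this
    · intro h3
      simp at h3
  | prod A B hA hB ihA ihB =>
    obtain ⟨cA, vA, pA, leA, -⟩ := ihA
    obtain ⟨cB, vB, pB, leB, -⟩ := ihB
    have hge := pettyRatio_prod_ge vA cA vB cB pA pB leA leB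
    rw [← Fintype.card_sum] at hge
    refine ⟨isCompact_prodSet cA cB, convex_prodSet vA vB, ?_, hge.1, hge.2⟩
    rw [vol_prodSet]
    exact mul_pos pA pB

end family

end

end Vale.Agent.Lib.P237
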